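import Vale.Agent.P201.VK

/-
The group presented by the triangles is torsion free when there is no reduced spherical
diagram, and its group algebra over the field with two elements has zero divisors.
-/

namespace Vale.Agent.P201

open Classical

section
variable {S V G A : Type}

/-- A conjugate of a relator. -/
def cj (p : FreeGroup (S ⊕ V) × Tri S V) : FreeGroup (S ⊕ V) := p.1 * trel p.2 * p.1⁻¹

theorem trel_trev (e : Tri S V) : trel (trev e) = (trel e)⁻¹ := by
  rw [trel, trel, FreeGroup.inv_mk]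
  rfl

theorem prod_cj_inv (L : List (FreeGroup (S ⊕ V) × Tri S V)) :
    ((L.map fun p => (p.1, trev p.2)).reverse.map cj).prod = ((L.map cj).prod)⁻¹ := by
  induction L with
  | nil => simp
  | cons p L ih =>
    rw [List.map_cons, List.reverse_cons, List.map_append, List.prod_append, ih]
    simp [cj, trel_trev, mul_assoc]

theorem prod_cj_conj (f : FreeGroup (S ⊕ V)) (L : List (FreeGroup (S ⊕ V) × Tri S V)) :
    ((L.map fun p => (f * p.1, p.2)).map cj).prod = f * (L.map cj).prod * f⁻¹ := by
  induction L with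
  | nil => simp
  | cons p L ih =>
    rw [List.map_cons, List.map_cons, List.prod_cons, ih]
    simp [cj, mul_assoc]

theorem exists_list {E : V → S × Bool → V → Prop} (hs : ∀ v a v', E v a v' → E v' (linv a) v)
    {f : FreeGroup (S ⊕ V)}
    (hf : f ∈ Subgroup.normalClosure (trel '' {e : Tri S V | E e.1 e.2.1 e.2.2})) :
    ∃ L : List (FreeGroup (S ⊕ V) × Tri S V), (∀ p ∈ L, E p.2.1 p.2.2.1 p.2.2.2) ∧
      (L.map cj).prod = f := by
  let N : Subgroup (FreeGroup (S ⊕ V)) :=
    { carrier := {f | ∃ L : List (FreeGroup (S ⊕ V) × Tri S V),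
        (∀ p ∈ L, E p.2.1 p.2.2.1 p.2.2.2) ∧ (L.map cj).prod = f}
      mul_mem' := by
        rintro _ _ ⟨L, h1, rfl⟩ ⟨L', h2, rfl⟩
        refine ⟨L ++ L', fun p hp => ?_, by simp⟩
        rcases List.mem_append.1 hp with h | h
        · exact h1 p h
        · exact h2 p h
      one_mem' := ⟨[], by simp, rfl⟩
      inv_mem' := by
        rintro _ ⟨L, h1, rfl⟩
        refine ⟨_, fun p hp => ?_, prod_cj_inv L⟩
        obtain ⟨q, hq, rfl⟩ := List.mem_map.1 (List.mem_reverse.1 hp)
        exact hs _ _ _ (h1 q hq) }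
  have : N.Normal := ⟨by
    rintro _ ⟨L, h1, rfl⟩ f
    refine ⟨_, fun p hp => ?_, prod_cj_conj f L⟩
    obtain ⟨q, hq, rfl⟩ := List.mem_map.1 hp
    exact h1 q hq⟩
  refine Subgroup.normalClosure_le_normal (N := N) ?_ hf
  rintro _ ⟨e, he, rfl⟩
  exact ⟨[(1, e)], by simpa using he, by simp [cj]⟩

variable [Group G] [AddCommGroup A]

theorem identity_list {E : V → S × Bool → V → Prop} (hN : NoDiagram E)
    (hs : ∀ v a v', E v a v' → E v' (linv a) v)
    (hd : ∀ v a v' v'', E v a v' → E v a v'' → v' = v'') (π : FreeGroup (S ⊕ V) →* G)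
    (hπ : ∀ e : Tri S V, E e.1 e.2.1 e.2.2 → π (trel e) = 1)
    (L : List (FreeGroup (S ⊕ V) × Tri S V)) (hE : ∀ p ∈ L, E p.2.1 p.2.2.1 p.2.2.2)
    (h1 : (L.map cj).prod = 1)
    (ω : G → Tri S V → A) (hω : ∀ γ e, E e.1 e.2.1 e.2.2 → ω γ (trev e) = - ω γ e) :
    (L.map fun p => ω (π p.1) p.2).sum = 0 := by
  have := identity_trivial hN hs hd π hπ L.length (fun t => (L.get t).1) (fun t => (L.get t).2)
    (fun t => hE _ (List.get_mem _ _)) (by
      rw [← h1]
      conv_rhs => rw [← List.map_get_finRange L]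
      rw [List.map_map]
      rfl) ω hω
  rw [← this, Fin.sum_univ_def]
  conv_lhs => rw [← List.map_get_finRange L]
  rw [List.map_map]
  rfl

/-- Integration of a cochain along a word. -/
def Iw {X : Type} (ev : X × Bool → G) (δ : G → X × Bool → A) : List (X × Bool) → G → A
  | [], _ => 0
  | a :: w, γ => δ γ a + Iw ev δ w (γ * ev a)

theorem exists_cocycle {X : Type} (π : FreeGroup X →* G) (δ : G → X × Bool → A)
    (hδ : ∀ γ a, δ (γ * π (FreeGroup.mk [a])) (linv a) = - δ γ a) :
    ∃ I : FreeGroup X → G → A, (∀ f f' γ, I (f * f') γ = I f γ + I f' (γ * π f)) ∧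
      ∀ w, I (FreeGroup.mk w) = Iw (fun a => π (FreeGroup.mk [a])) δ w := by
  have app : ∀ w w' γ, Iw (fun a => π (FreeGroup.mk [a])) δ (w ++ w') γ =
      Iw (fun a => π (FreeGroup.mk [a])) δ w γ +
        Iw (fun a => π (FreeGroup.mk [a])) δ w' (γ * π (FreeGroup.mk w)) := by
    intro w w'
    induction w with
    | nil => intro γ; simp [Iw, ← FreeGroup.one_eq_mk]
    | cons a w ih =>
      intro γ
      rw [List.cons_append, Iw, Iw, ih, add_assoc, mul_assoc, ← map_mul, FreeGroup.mul_mk]
      rfl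
  refine ⟨Quot.lift (Iw (fun a => π (FreeGroup.mk [a])) δ) ?_, ?_, fun _ => rfl⟩
  · rintro _ _ @⟨L1, L2, x, b⟩
    funext γ
    rw [app, app, Iw, Iw]
    have := hδ (γ * π (FreeGroup.mk L1)) (x, b)
    have e := mk_linv (x, b)
    simp only [linv] at this e
    rw [this, e, map_inv, mul_inv_cancel_right, add_neg_cancel_left]
  · rintro ⟨w⟩ ⟨w'⟩ γ
    exact app w w' γ

theorem exists_kappa (g : G) : ∃ κ : G → ZMod (orderOf g), ∀ γ, κ (g * γ) = κ γ + 1 := by
  let r : G → G := fun γ => (Quotient.mk (QuotientGroup.rightRel (Subgroup.zpowers g)) γ).out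
  have h1 : ∀ γ, ∃ n : ℤ, g ^ n = γ * (r γ)⁻¹ := fun γ =>
    Subgroup.mem_zpowers_iff.1 (QuotientGroup.rightRel_apply.1
      (Quotient.mk_out (s := QuotientGroup.rightRel (Subgroup.zpowers g)) γ))
  have h2 : ∀ γ, r (g * γ) = r γ := by
    intro γ
    have : Quotient.mk (QuotientGroup.rightRel (Subgroup.zpowers g)) γ =
        Quotient.mk (QuotientGroup.rightRel (Subgroup.zpowers g)) (g * γ) :=
      Quotient.sound (QuotientGroup.rightRel_apply.2 (by simp))
    simp only [r, this]
  choose n hn using h1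
  refine ⟨fun γ => n γ, fun γ => ?_⟩
  have : g ^ n (g * γ) = g ^ (n γ + 1) := by
    rw [hn, h2, add_comm, zpow_add, hn, zpow_one, mul_assoc]
  have := (ZMod.intCast_eq_intCast_iff _ _ _).2 (zpow_eq_zpow_iff_modEq.1 this)
  simpa using this

theorem sum_range_ite {k : ℕ} [NeZero k] (z : ZMod k) (c : A) :
    ∑ j ∈ Finset.range k, (if z + j = 0 then c else 0) = c := by
  rw [Finset.sum_eq_single_of_mem (-z).val (Finset.mem_range.2 (ZMod.val_lt _))]
  · simp
  · intro j hj hne
    rw [if_neg]
    intro h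
    apply hne
    rw [neg_eq_of_add_eq_zero_right h, ZMod.val_natCast, Nat.mod_eq_of_lt (Finset.mem_range.1 hj)]

theorem sum_map_finsetSum {P J : Type} (L : List P) (s : Finset J) (F : J → P → A) :
    ∑ j ∈ s, (L.map (F j)).sum = (L.map fun p => ∑ j ∈ s, F j p).sum := by
  induction L with
  | nil => simp
  | cons p L ih => simp [Finset.sum_add_distrib, ih]

end

theorem torsion_free {S V : Type} {E : V → S × Bool → V → Prop} (hN : NoDiagram E)
    (hs : ∀ v a v', E v a v' → E v' (linv a) v)
    (hd : ∀ v a v' v'', E v a v' → E v a v'' → v' = v'')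
    (g : PresentedGroup (trel '' {e : Tri S V | E e.1 e.2.1 e.2.2})) (hg : IsOfFinOrder g) :
    g = 1 := by
  by_contra hne
  set π := PresentedGroup.mk (trel '' {e : Tri S V | E e.1 e.2.1 e.2.2}) with hπdef
  have hπ : ∀ e : Tri S V, E e.1 e.2.1 e.2.2 → π (trel e) = 1 := fun e he =>
    PresentedGroup.one_of_mem ⟨e, he, rfl⟩
  obtain ⟨f, hf⟩ := PresentedGroup.mk_surjective _ g
  rw [← hπdef] at hf
  have hk0 : 0 < orderOf g := hg.orderOf_pos
  have hk1 : orderOf g ≠ 1 := fun h => hne (orderOf_eq_one_iff.1 h)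
  have : NeZero (orderOf g) := ⟨hk0.ne'⟩
  have : Fact (1 < orderOf g) := ⟨by omega⟩
  obtain ⟨L, hL, hLf⟩ := exists_list hs (f := f ^ orderOf g) (by
    rw [← PresentedGroup.mk_eq_one_iff, ← hπdef, map_pow, hf, pow_orderOf_eq_one])
  obtain ⟨κ, hκ⟩ := exists_kappa g
  have hκ' : ∀ (j : ℕ) γ, κ (g ^ j * γ) = κ γ + j := by
    intro j γ
    induction j with
    | zero => simp
    | succ j ih => rw [pow_succ', mul_assoc, hκ, ih]; push_cast; ring
  let δ : _ → (S ⊕ V) × Bool → ZMod (orderOf g) := fun γ a =>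
    if (if a.2 then κ γ else κ (γ * π (FreeGroup.mk [a]))) = 0 then
      κ (γ * π (FreeGroup.mk [a])) - κ γ else 0
  obtain ⟨I, I1, I2⟩ := exists_cocycle π δ (by
    rintro γ ⟨x, b⟩
    have e := mk_linv (x, b)
    simp only [δ, e, map_inv, mul_inv_cancel_right]
    cases b
    · simp only [linv, Bool.not_false, if_true, Bool.false_eq_true, if_false]
      split_ifs <;> simp
    · simp only [linv, Bool.not_true, if_true, Bool.false_eq_true, if_false]
      split_ifs <;> simp)
  have I0 : ∀ γ, I 1 γ = 0 := fun γ => by rw [FreeGroup.one_eq_mk, I2]; rfl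
  have Iinv : ∀ f γ, I f⁻¹ (γ * π f) = - I f γ := fun f γ => by
    have := I1 f f⁻¹ γ
    rw [mul_inv_cancel, I0] at this
    exact (neg_eq_of_add_eq_zero_right this.symm).symm
  have J : ∀ f γ, ∑ j ∈ Finset.range (orderOf g), I f (g ^ j * γ) = κ (γ * π f) - κ γ := by
    rintro ⟨w⟩
    show ∀ γ, ∑ j ∈ Finset.range (orderOf g), I (FreeGroup.mk w) (g ^ j * γ) =
      κ (γ * π (FreeGroup.mk w)) - κ γ
    rw [I2]
    induction w with
    | nil => intro γ; simp [Iw, ← FreeGroup.one_eq_mk]
    | cons a w ih =>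
      intro γ
      simp only [Iw, Finset.sum_add_distrib, mul_assoc]
      rw [ih, mul_assoc, ← map_mul, FreeGroup.mul_mk]
      have : ∑ j ∈ Finset.range (orderOf g), δ (g ^ j * γ) a =
          κ (γ * π (FreeGroup.mk [a])) - κ γ := by
        rw [← sum_range_ite (if a.2 then κ γ else κ (γ * π (FreeGroup.mk [a])))
          (κ (γ * π (FreeGroup.mk [a])) - κ γ)]
        refine Finset.sum_congr rfl fun j _ => ?_
        simp only [δ, mul_assoc, hκ', add_sub_add_right_eq_sub]
        cases a.2 <;> simp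
      rw [this]
      simp
  have Isum : ∀ L : List (FreeGroup (S ⊕ V) × Tri S V), (∀ p ∈ L, E p.2.1 p.2.2.1 p.2.2.2) →
      I (L.map cj).prod 1 = (L.map fun p => I (trel p.2) (π p.1)).sum := by
    intro L hL
    induction L with
    | nil => exact I0 _
    | cons p L ih =>
      have e := hπ _ (hL p (by simp))
      have e' : π (cj p) = 1 := by simp [cj, e]
      have := Iinv p.1 1
      rw [List.map_cons, List.prod_cons, I1, e', mul_one, ih (fun q hq => hL q (by simp [hq])),
        List.map_cons, List.sum_cons, cj, I1, I1, map_mul, e, mul_one, this]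
      simp
  have Ipow : ∀ j : ℕ, I (f ^ j) 1 = ∑ i ∈ Finset.range j, I f (g ^ i * 1) := by
    intro j
    induction j with
    | zero => simp [I0]
    | succ j ih => rw [pow_succ, I1, ih, Finset.sum_range_succ, map_pow, hf]; simp
  have one : (L.map fun p => I (trel p.2) (π p.1)).sum = 1 := by
    rw [← Isum L hL, hLf, Ipow, J, hf, one_mul]
    have := hκ 1
    rw [mul_one] at this
    rw [this]
    simp
  have shift : ∀ ω : _ → Tri S V → ZMod (orderOf g),
      (∀ γ e, E e.1 e.2.1 e.2.2 → ω γ (trev e) = - ω γ e) →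
      (L.map fun p => ω (π p.1) p.2).sum = (L.map fun p => ω (g * π p.1) p.2).sum := by
    intro ω hω
    have := identity_list hN hs hd π hπ
      (L ++ ((L.map fun p => (f * p.1, p.2)).map fun p => (p.1, trev p.2)).reverse) ?_ ?_ ω hω
    · rw [List.map_append, List.sum_append, List.map_reverse, List.sum_reverse, List.map_map,
        List.map_map] at this
      rw [eq_neg_of_add_eq_zero_left this, List.sum_neg, List.map_map]
      refine congrArg List.sum (List.map_congr_left fun p hp => ?_)
      simp [hω _ _ (hL p hp), hf]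
    · intro p hp
      rcases List.mem_append.1 hp with h | h
      · exact hL p h
      · obtain ⟨q, hq, rfl⟩ := List.mem_map.1 (List.mem_reverse.1 h)
        obtain ⟨q', hq', rfl⟩ := List.mem_map.1 hq
        exact hs _ _ _ (hL q' hq')
    · rw [List.map_append, List.prod_append, prod_cj_inv, prod_cj_conj, hLf]
      group
  have shiftj : ∀ (j : ℕ) (ω : _ → Tri S V → ZMod (orderOf g)),
      (∀ γ e, E e.1 e.2.1 e.2.2 → ω γ (trev e) = - ω γ e) →
      (L.map fun p => ω (π p.1) p.2).sum = (L.map fun p => ω (g ^ j * π p.1) p.2).sum := by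
    intro j ω hω
    induction j with
    | zero => simp
    | succ j ih =>
      rw [ih, shift (fun γ e => ω (g ^ j * γ) e) (fun γ e he => hω _ e he)]
      simp only [pow_succ, mul_assoc]
  have anti : ∀ γ e, E e.1 e.2.1 e.2.2 → I (trel (trev e)) γ = - I (trel e) γ := by
    intro γ e he
    have := Iinv (trel e) γ
    rwa [hπ e he, mul_one, ← trel_trev] at this
  have zero : (L.map fun p => I (trel p.2) (π p.1)).sum = 0 := by
    calc _ = (L.map fun p => ∑ j ∈ Finset.range (orderOf g),
          if -κ (π p.1) + j = 0 then I (trel p.2) (π p.1) else 0).sum := by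
          simp only [sum_range_ite]
      _ = ∑ j ∈ Finset.range (orderOf g), (L.map fun p =>
          if -κ (g ^ j * π p.1) + j = 0 then I (trel p.2) (g ^ j * π p.1) else 0).sum := by
          rw [← sum_map_finsetSum]
          refine Finset.sum_congr rfl fun j _ => ?_
          refine shiftj j (fun γ e => if -κ γ + j = 0 then I (trel e) γ else 0) ?_
          intro γ e he
          split_ifs
          · exact anti γ e he
          · simp
      _ = 0 := by
          rw [sum_map_finsetSum]
          refine List.sum_eq_zero fun x hx => ?_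
          obtain ⟨p, hp, rfl⟩ := List.mem_map.1 hx
          simp only [hκ', neg_add_rev, add_comm (-(_ : ZMod (orderOf g))) (-κ _),
            neg_add_cancel_right]
          split_ifs
          · rw [J, hπ _ (hL p hp)]
            simp
          · simp
  exact one_ne_zero (one.symm.trans zero)

theorem algebra_main {S V : Type} [Fintype S] [Fintype V] {E : V → S × Bool → V → Prop}
    (hN : NoDiagram E) (hs : ∀ v a v', E v a v' → E v' (linv a) v)
    (hd : ∀ v a v' v'', E v a v' → E v a v'' → v' = v'') (side gr : V → Bool)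
    (hside : ∀ v a v', E v a v' → side v' = side v ∧ gr v' = !gr v) (c : V → ZMod 2)
    (hpar : ∀ a b, side a = true → side b = false →
      ((Finset.univ.filter fun x => (∃ v, E a x v) ∧ ∃ v, E b x v).card : ZMod 2) = c b)
    (hA : ((Finset.univ.filter fun v => side v = true ∧ gr v = false).card : ZMod 2) ≠ 0)
    (hB : ∑ v ∈ Finset.univ.filter (fun v => side v = false ∧ gr v = false), c v ≠ 0) :
    ∃ (G : Type) (_ : Group G), Group.IsFinitelyPresented G ∧ (∀ g : G, IsOfFinOrder g → g = 1) ∧
      ∃ α β : MonoidAlgebra (ZMod 2) G, α ≠ 0 ∧ β ≠ 0 ∧ α * β = 0 := by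
  let rels := trel '' {e : Tri S V | E e.1 e.2.1 e.2.2}
  have : Finite rels := Set.Finite.image _ (Set.toFinite _)
  let G := PresentedGroup rels
  let gv : V → G := fun v => PresentedGroup.of (Sum.inr v)
  let gl : S × Bool → G := fun a => PresentedGroup.mk rels (FreeGroup.mk [(Sum.inl a.1, a.2)])
  have trel_eq : ∀ e : Tri S V, trel e = FreeGroup.of (Sum.inr e.1) *
      FreeGroup.mk [(Sum.inl e.2.1.1, e.2.1.2)] * (FreeGroup.of (Sum.inr e.2.2))⁻¹ := fun e => rfl
  have hg : ∀ v a v', E v a v' → gv v * gl a = gv v' := by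
    intro v a v' h
    have : PresentedGroup.mk rels (trel (v, a, v')) = 1 := PresentedGroup.one_of_mem ⟨_, h, rfl⟩
    rw [trel_eq, map_mul, map_mul, map_inv, mul_inv_eq_one] at this
    exact this
  let χ0 : S ⊕ V → Multiplicative (ZMod 2) := fun x => match x with
    | Sum.inl _ => Multiplicative.ofAdd 1
    | Sum.inr v => Multiplicative.ofAdd (if gr v then 1 else 0)
  have hχ : ∀ r ∈ rels, FreeGroup.lift χ0 r = 1 := by
    rintro _ ⟨⟨v, ⟨s, b⟩, v'⟩, h, rfl⟩
    have e := (hside _ _ _ h).2
    rw [trel_eq, map_mul, map_mul, map_inv, FreeGroup.lift_apply_of, FreeGroup.lift_apply_of,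
      FreeGroup.lift_mk]
    simp only [χ0, List.map_cons, List.map_nil, List.prod_cons, List.prod_nil] at e ⊢
    rw [e]
    cases gr v <;> cases b <;> decide
  let χ : G →* Multiplicative (ZMod 2) := PresentedGroup.toGroup hχ
  let Φ : MonoidAlgebra (ZMod 2) G →+ ZMod 2 :=
    MonoidAlgebra.liftNC (AddMonoidHom.id _) (fun γ => if χ γ = 1 then 1 else 0)
  have χv : ∀ v, χ (gv v) = 1 ↔ gr v = false := by
    intro v
    have : χ (gv v) = χ0 (Sum.inr v) := PresentedGroup.toGroup.of hχ
    rw [this]
    simp only [χ0]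
    cases gr v <;> decide
  refine ⟨G, inferInstance, inferInstance, torsion_free hN hs hd,
    ∑ a ∈ Finset.univ.filter (fun v => side v = true), MonoidAlgebra.single (gv a) 1,
    ∑ b ∈ Finset.univ.filter (fun v => side v = false), MonoidAlgebra.single (gv b)⁻¹ (c b),
    fun h => hA ?_, fun h => hB ?_, ?_⟩
  · have := congrArg Φ h
    rw [map_sum, map_zero] at this
    rw [← this, ← Finset.filter_filter, Finset.card_filter]
    push_cast
    refine Finset.sum_congr rfl fun v _ => ?_
    simp only [Φ, MonoidAlgebra.liftNC_single, χv]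
    simp
  · have := congrArg Φ h
    rw [map_sum, map_zero] at this
    rw [← this, ← Finset.filter_filter, Finset.sum_filter]
    refine Finset.sum_congr rfl fun v _ => ?_
    simp only [Φ, MonoidAlgebra.liftNC_single, map_inv, inv_eq_one, χv]
    simp
  · let P : Finset (V × V × (S × Bool)) := Finset.univ.filter fun p =>
      (side p.1 = true ∧ side p.2.1 = false) ∧ (∃ v, E p.1 p.2.2 v) ∧ ∃ v, E p.2.1 p.2.2 v
    have e1 : (∑ a ∈ Finset.univ.filter (fun v => side v = true),
        MonoidAlgebra.single (gv a) (1 : ZMod 2)) *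
        (∑ b ∈ Finset.univ.filter (fun v => side v = false),
          MonoidAlgebra.single (gv b)⁻¹ (c b)) =
        ∑ p ∈ P, MonoidAlgebra.single (gv p.1 * (gv p.2.1)⁻¹) (1 : ZMod 2) := by
      rw [Finset.sum_mul_sum, Finset.sum_filter, Finset.sum_filter, Fintype.sum_prod_type]
      refine Finset.sum_congr rfl fun a _ => ?_
      rw [Fintype.sum_prod_type, Finset.sum_filter]
      by_cases ha : side a = true
      · rw [if_pos ha]
        refine Finset.sum_congr rfl fun b _ => ?_
        by_cases hb : side b = false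
        · rw [if_pos hb, MonoidAlgebra.single_mul_single, one_mul, ← hpar a b ha hb]
          simp only [ha, hb, true_and]
          rw [← Finset.sum_filter, Finset.sum_const, MonoidAlgebra.smul_single, nsmul_eq_mul,
            mul_one]
        · simp [hb]
      · simp [ha]
    rw [e1]
    have nx : ∀ p ∈ P, ∃ q : V × V × (S × Bool), E p.1 p.2.2 q.1 ∧ E p.2.1 p.2.2 q.2.1 ∧
        q.2.2 = linv p.2.2 := by
      intro p hp
      obtain ⟨-, ⟨v, hv⟩, v', hv'⟩ := (Finset.mem_filter.1 hp).2
      exact ⟨(v, v', linv p.2.2), hv, hv', rfl⟩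
    choose F F1 F2 F3 using nx
    have hmem : ∀ p (hp : p ∈ P), F p hp ∈ P := by
      intro p hp
      obtain ⟨⟨s1, s2⟩, -⟩ := (Finset.mem_filter.1 hp).2
      refine Finset.mem_filter.2 ⟨Finset.mem_univ _, ⟨(hside _ _ _ (F1 p hp)).1.trans s1,
        (hside _ _ _ (F2 p hp)).1.trans s2⟩, ?_⟩
      rw [F3]
      exact ⟨⟨_, hs _ _ _ (F1 p hp)⟩, _, hs _ _ _ (F2 p hp)⟩
    refine Finset.sum_involution F ?_ ?_ hmem ?_
    · intro p hp
      rw [← hg _ _ _ (F1 p hp), ← hg _ _ _ (F2 p hp), mul_inv_rev, mul_assoc,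
        mul_inv_cancel_left, ← MonoidAlgebra.single_add]
      exact MonoidAlgebra.single_zero _
    · intro p hp _ h
      exact linv_ne _ ((F3 p hp).symm.trans (congrArg (fun q => q.2.2) h))
    · intro p hp
      have a1 := F1 _ (hmem p hp)
      have a2 := F2 _ (hmem p hp)
      have a3 := F3 _ (hmem p hp)
      rw [F3 p hp] at a1 a2 a3
      rw [linv_linv] at a3
      exact Prod.ext (hd _ _ _ _ a1 (hs _ _ _ (F1 p hp)))
        (Prod.ext (hd _ _ _ _ a2 (hs _ _ _ (F2 p hp))) a3)

end Vale.Agent.P201
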