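import Vale.Agent.P201.Contour

/-
Planar maps contain pieces of bounded size with small boundary.
-/

namespace Vale.Agent.P201

open Equiv Equiv.Perm Classical

theorem exists_fiber_le {D I : Type} [DecidableEq I] (A : Finset D) (hA : A.Nonempty) (π : D → I) (a b : D → ℝ)
    (h : ∑ x ∈ A, a x ≤ ∑ x ∈ A, b x) : ∃ x ∈ A, ∑ y ∈ A.filter (fun y => π y = π x), a y ≤
      ∑ y ∈ A.filter (fun y => π y = π x), b y := by
  by_contra hcon
  push Not at hcon
  rw [← Finset.sum_fiberwise_of_maps_to (t := A.image π) (g := π)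
    (fun x hx => Finset.mem_image_of_mem _ hx) a, ← Finset.sum_fiberwise_of_maps_to
    (t := A.image π) (g := π) (fun x hx => Finset.mem_image_of_mem _ hx) b] at h
  refine absurd h (not_le.2 (Finset.sum_lt_sum_of_nonempty (hA.image π) ?_))
  intro i hi
  obtain ⟨x, hx, rfl⟩ := Finset.mem_image.1 hi
  exact hcon x hx

theorem band_eq {r j l l' : ℕ} (h1 : l' ≤ l + 1) (h2 : l ≤ l' + 1) (a1 : ¬ r ∣ l + j)
    (a2 : ¬ r ∣ l' + j) : (l + j) / r = (l' + j) / r := by
  have key : ∀ m, ¬ r ∣ m + 1 + j → (m + 1 + j) / r = (m + j) / r := by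
    intro m hm
    rw [show m + 1 + j = m + j + 1 by ring] at hm ⊢
    rw [Nat.succ_div, if_neg hm, add_zero]
  rcases Nat.lt_trichotomy l l' with h | h | h
  · obtain rfl : l' = l + 1 := by omega
    exact (key l a2).symm
  · rw [h]
  · obtain rfl : l = l' + 1 := by omega
    exact key l' a1

theorem lab_eq_of_no_bd {lab : ℕ → ℕ} {Bd : Finset ℕ} (h : ∀ p, p ∉ Bd → lab (p + 1) = lab p)
    {u v : ℕ} (huv : u ≤ v) (hne : lab u ≠ lab v) : ∃ p ∈ Bd, u ≤ p ∧ p < v := by
  induction v, huv using Nat.le_induction with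
  | base => exact absurd rfl hne
  | succ v huv ih =>
    by_cases hv : v ∈ Bd
    · exact ⟨v, hv, huv, by omega⟩
    · rw [h v hv] at hne
      obtain ⟨p, h1, h2, h3⟩ := ih hne
      exact ⟨p, h1, h2, by omega⟩

theorem exists_cluster {D : Type} [Fintype D] [Nonempty D] {f τ : Perm D} (hP : Planar f τ)
    (hτ : ∀ x, τ (τ x) = x) (s r C : ℕ)
    (hs : ∀ x, (Finset.univ.filter fun y => sc f x y).card ≤ s) (hr : 0 < r) (hC : 0 < C)
    (κ : D → ℝ) (hκ : ∀ x, 0 ≤ κ x) (β η : ℝ) (hβ0 : 0 ≤ β) (hβ : ∑ x, κ x ≤ β * Fintype.card D)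
    (hη : 1 / (r : ℝ) + 2 * r * s / C ≤ η) (hη2 : η ≤ 1 / 2) :
    ∃ Y : Finset D, Y.Nonempty ∧ (∀ x ∈ Y, f x ∈ Y) ∧ Y.card ≤ 2 * C ∧
      ((Y.filter fun x => τ x ∉ Y).card : ℝ) + ∑ x ∈ Y, κ x ≤ 2 * (η + β) * Y.card := by
  -- a component with small cost
  obtain ⟨r0, -, hr0⟩ := exists_fiber_le Finset.univ Finset.univ_nonempty
    (fun x => Quotient.mk (sc f ⊔ sc τ) x) κ (fun _ => β) (by simpa [mul_comm] using hβ)
  set Q := Finset.univ.filter fun y => Quotient.mk (sc f ⊔ sc τ) y = Quotient.mk (sc f ⊔ sc τ) r0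
    with hQdef
  have hQ : ∀ x, x ∈ Q ↔ (sc f ⊔ sc τ) r0 x := by
    intro x
    simp only [hQdef, Finset.mem_filter, Finset.mem_univ, true_and]
    exact ⟨fun k => (sc f ⊔ sc τ).symm' (Quotient.exact k),
      fun k => Quotient.sound ((sc f ⊔ sc τ).symm' k)⟩
  rw [Finset.sum_const, nsmul_eq_mul] at hr0
  have Qf : ∀ x y, sc f x y → x ∈ Q → y ∈ Q := fun x y h hx =>
    (hQ y).2 ((sc f ⊔ sc τ).trans' ((hQ x).1 hx) ((le_sup_left : sc f ≤ _) h))
  have Qτ : ∀ x ∈ Q, τ x ∈ Q := fun x hx =>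
    (hQ _).2 ((sc f ⊔ sc τ).trans' ((hQ x).1 hx) ((le_sup_right : sc τ ≤ _) (sc_apply τ x)))
  have Qpos : 0 < Q.card := Finset.card_pos.2 ⟨r0, (hQ _).2 ((sc f ⊔ sc τ).refl' _)⟩
  obtain ⟨lev, pos, l1, l2, pinj, pnc, phull⟩ := exists_contour hP hτ r0
  -- a residue class of levels
  obtain ⟨i, hi, hi2⟩ : ∃ i ∈ Finset.range r, (Q.filter fun x => lev x % r = i).card * r ≤
      Q.card := by
    refine Finset.exists_le_of_sum_le ⟨0, Finset.mem_range.2 hr⟩ ?_
    rw [← Finset.sum_mul, ← Finset.card_eq_sum_card_fiberwise (f := fun x => lev x % r)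
      (fun x _ => Finset.mem_coe.2 (Finset.mem_range.2 (Nat.mod_lt _ hr)))]
    simp [mul_comm]
  have hi' := Finset.mem_range.1 hi
  set j := r - i with hj
  let band : D → ℕ := fun x => (lev x + j) / r
  have hlab := fun k => exists_labels (fun x => x ∈ Q) pos τ
    (fun x y hx hy => pinj x y ((hQ x).1 hx) ((hQ y).1 hy)) Qτ hτ
    (fun a b ha hb => pnc a b ((hQ a).1 ha) ((hQ b).1 hb)) C hC _
    (Q.filter fun x => band x = k) rfl (fun x hx => (Finset.mem_filter.1 hx).1)
  choose lab Bd b1 b2 b3 b4 using hlab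
  let Cut := Q.filter fun x => ∃ y z, sc f x y ∧ sc f x z ∧
    lab (band x) (pos y) ≠ lab (band x) (pos z)
  let R := (Q.filter fun x => r ∣ lev x + j) ∪ Cut
  have hR1 : (Q.filter fun x => r ∣ lev x + j).card * r ≤ Q.card := by
    refine le_trans (Nat.mul_le_mul_right _ (Finset.card_le_card ?_)) hi2
    intro x hx
    simp only [Finset.mem_filter] at hx ⊢
    refine ⟨hx.1, ?_⟩
    obtain ⟨c, hc⟩ := hx.2
    have e1 := Nat.div_add_mod (lev x) r
    have e2 := Nat.mod_lt (lev x) hr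
    have e3 : c = lev x / r + 1 := by
      have a1 : r * (lev x / r) < r * c := by omega
      have a2 : r * c < r * (lev x / r + 2) := by rw [mul_add]; omega
      have := Nat.lt_of_mul_lt_mul_left a1
      have := Nat.lt_of_mul_lt_mul_left a2
      omega
    rw [e3, mul_add] at hc
    omega
  have hR2 : Cut.card * C ≤ 2 * r * s * Q.card := by
    have k1 : ∀ k, (Cut.filter fun x => band x = k).card ≤ (Bd k).card * (r * s) := by
      intro k
      have hsub : (Cut.filter fun x => band x = k) ⊆ (Bd k).biUnion fun p =>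
          (Finset.range r).biUnion fun t => Q.filter fun x => band x = k ∧ (lev x + j) % r = t ∧
            ∃ y z, sc f x y ∧ sc f x z ∧ pos y ≤ p ∧ p < pos z := by
        intro x hx
        simp only [Cut, Finset.mem_filter] at hx
        obtain ⟨⟨hxQ, y, z, h1, h2, h3⟩, rfl⟩ := hx
        simp only [Finset.mem_biUnion, Finset.mem_filter, Finset.mem_range]
        rcases le_total (pos y) (pos z) with h | h
        · obtain ⟨p, p1, p2, p3⟩ := lab_eq_of_no_bd (b1 _) h h3
          exact ⟨p, p1, _, Nat.mod_lt _ hr, hxQ, trivial, rfl, y, z, h1, h2, p2, p3⟩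
        · obtain ⟨p, p1, p2, p3⟩ := lab_eq_of_no_bd (b1 _) h h3.symm
          exact ⟨p, p1, _, Nat.mod_lt _ hr, hxQ, trivial, rfl, z, y, h2, h1, p2, p3⟩
      refine (Finset.card_le_card hsub).trans (Finset.card_biUnion_le_card_mul _ _ _ fun p _ => ?_)
      refine (Finset.card_biUnion_le_card_mul _ _ s fun t _ => ?_).trans (by simp)
      rcases (Q.filter fun x => band x = k ∧ (lev x + j) % r = t ∧
            ∃ y z, sc f x y ∧ sc f x z ∧ pos y ≤ p ∧ p < pos z).eq_empty_or_nonempty with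
        h | ⟨x, hx⟩
      · rw [h]
        simp
      refine le_trans (Finset.card_le_card ?_) (hs x)
      intro x' hx'
      simp only [Finset.mem_filter, Finset.mem_univ, true_and] at hx hx' ⊢
      obtain ⟨xQ, x1, x2, y, z, x3, x4, x5, x6⟩ := hx
      obtain ⟨xQ', x1', x2', y', z', x3', x4', x5', x6'⟩ := hx'
      have hl : lev x = lev x' := by
        have e1 := Nat.div_add_mod (lev x + j) r
        have e2 := Nat.div_add_mod (lev x' + j) r
        simp only [band] at x1 x1'
        rw [x1, x2] at e1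
        rw [x1', x2'] at e2
        omega
      have ly := l1 _ _ x3
      have ly' := l1 _ _ x3'
      have yQ := (hQ _).1 (Qf _ _ x3 xQ)
      have yQ' := (hQ _).1 (Qf _ _ x3' xQ')
      have : sc f y y' := by
        rcases le_total (pos y) (pos y') with h | h
        · exact phull y y' z yQ yQ' ((sc f).trans' ((sc f).symm' x3) x4) h (by omega) (by omega)
        · exact (sc f).symm'
            (phull y' y z' yQ' yQ ((sc f).trans' ((sc f).symm' x3') x4') h (by omega) (by omega))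
      exact (sc f).trans' x3 ((sc f).trans' this ((sc f).symm' x3'))
    rw [Finset.card_eq_sum_card_fiberwise (s := Cut) (t := Q.image band) (f := band)
      (fun x hx => Finset.mem_coe.2 (Finset.mem_image_of_mem _ (Finset.mem_filter.1 hx).1)),
      Finset.card_eq_sum_card_fiberwise (s := Q) (t := Q.image band) (f := band)
      (fun x hx => Finset.mem_coe.2 (Finset.mem_image_of_mem _ hx)), Finset.sum_mul,
      Finset.mul_sum]
    refine Finset.sum_le_sum fun k _ => ?_
    calc _ ≤ (Bd k).card * (r * s) * C := Nat.mul_le_mul_right _ (k1 k)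
      _ = (r * s) * ((Bd k).card * C) := by ring
      _ ≤ (r * s) * (2 * _) := Nat.mul_le_mul_left _ (b4 k)
      _ = _ := by ring
  have hR : (R.card : ℝ) ≤ η * Q.card := by
    have k0 : (R.card : ℝ) ≤ (Q.filter fun x => r ∣ lev x + j).card + Cut.card := by
      exact_mod_cast Finset.card_union_le _ _
    have hr' : (0 : ℝ) < r := by exact_mod_cast hr
    have hC' : (0 : ℝ) < C := by exact_mod_cast hC
    have k1 : ((Q.filter fun x => r ∣ lev x + j).card : ℝ) ≤ 1 / r * Q.card := by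
      rw [one_div_mul_eq_div, le_div_iff₀ hr']
      exact_mod_cast hR1
    have k2 : (Cut.card : ℝ) ≤ 2 * r * s / C * Q.card := by
      rw [div_mul_eq_mul_div, le_div_iff₀ hC']
      exact_mod_cast hR2
    have k3 := mul_le_mul_of_nonneg_right hη (Nat.cast_nonneg (α := ℝ) Q.card)
    linarith
  have RQ : R ⊆ Q := Finset.union_subset (Finset.filter_subset _ _) (Finset.filter_subset _ _)
  have hA : ((Q \ R).card : ℝ) = Q.card - R.card := by
    rw [Finset.card_sdiff_of_subset RQ, Nat.cast_sub (Finset.card_le_card RQ)]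
  have Qpos' : (0 : ℝ) < Q.card := by exact_mod_cast Qpos
  have hA2 : (Q.card : ℝ) ≤ 2 * (Q \ R).card := by nlinarith
  have hAne : (Q \ R).Nonempty := by
    rw [← Finset.card_pos]
    have : (0 : ℝ) < (Q \ R).card := by linarith
    exact_mod_cast this
  have hη0 : 0 ≤ η := le_trans (by positivity) hη
  let π : D → ℕ × ℕ := fun x => (band x, lab (band x) (pos x))
  obtain ⟨x0, hx0, hfin⟩ := exists_fiber_le (Q \ R) hAne π
    (fun x => (if τ x ∈ R then 1 else 0) + κ x) (fun _ => 2 * (η + β)) (by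
      rw [Finset.sum_add_distrib, Finset.sum_const, nsmul_eq_mul, Finset.sum_boole]
      have k1 : (((Q \ R).filter fun x => τ x ∈ R).card : ℝ) ≤ R.card := by
        refine Nat.cast_le.2 (Finset.card_le_card_of_injOn τ ?_ τ.injective.injOn)
        intro x hx
        exact (Finset.mem_filter.1 hx).2
      have k2 : ∑ x ∈ Q \ R, κ x ≤ ∑ x ∈ Q, κ x :=
        Finset.sum_le_sum_of_subset_of_nonneg Finset.sdiff_subset fun x _ _ => hκ x
      have k3 := mul_le_mul_of_nonneg_left hA2 (add_nonneg hη0 hβ0)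
      nlinarith)
  have memR : ∀ x ∈ Q, x ∉ R ↔ ¬ r ∣ lev x + j ∧ ∀ y z, sc f x y → sc f x z →
      lab (band x) (pos y) = lab (band x) (pos z) := by
    intro x hx
    simp only [R, Cut, Finset.mem_union, Finset.mem_filter, hx, true_and, not_or, not_exists,
      not_and, not_not]
  refine ⟨(Q \ R).filter fun y => π y = π x0, ⟨x0, by simp [hx0]⟩, ?_, ?_, ?_⟩
  · intro x hx
    simp only [Finset.mem_filter, Finset.mem_sdiff] at hx ⊢
    obtain ⟨⟨xQ, xR⟩, hπ⟩ := hx
    have s1 := sc_apply f x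
    have e1 : lev (f x) = lev x := (l1 _ _ s1).symm
    have e2 : band (f x) = band x := by simp only [band, e1]
    have k := (memR x xQ).1 xR
    refine ⟨⟨Qf _ _ s1 xQ, (memR _ (Qf _ _ s1 xQ)).2 ⟨e1 ▸ k.1, fun y z h1 h2 => ?_⟩⟩, ?_⟩
    · rw [e2]
      exact k.2 y z ((sc f).trans' s1 h1) ((sc f).trans' s1 h2)
    · rw [← hπ]
      simp only [π, e2, k.2 (f x) x s1 ((sc f).refl' _)]
  · refine le_trans (Finset.card_le_card ?_) (b3 (band x0) (lab (band x0) (pos x0)))
    intro x hx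
    simp only [Finset.mem_filter, Finset.mem_sdiff, π, Prod.mk.injEq] at hx ⊢
    exact ⟨⟨hx.1.1, hx.2.1⟩, by rw [← hx.2.2, hx.2.1]⟩
  · rw [Finset.sum_add_distrib, Finset.sum_const, nsmul_eq_mul, Finset.sum_boole,
      mul_comm] at hfin
    refine le_trans (add_le_add_left (Nat.cast_le.2 (Finset.card_le_card ?_)) _) hfin
    intro x hx
    rw [Finset.mem_filter] at hx ⊢
    refine ⟨hx.1, ?_⟩
    by_contra hn
    apply hx.2
    have hx1 := hx.1
    simp only [Finset.mem_filter, Finset.mem_sdiff] at hx1 ⊢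
    obtain ⟨⟨xQ, xR⟩, hπ⟩ := hx1
    refine ⟨⟨Qτ x xQ, hn⟩, ?_⟩
    have a1 := l2 x ((hQ _).1 xQ)
    have a2 := l2 (τ x) ((hQ _).1 (Qτ x xQ))
    rw [hτ] at a2
    have e2 : band (τ x) = band x :=
      band_eq a2 a1 ((memR _ (Qτ x xQ)).1 hn).1 ((memR _ xQ).1 xR).1
    rw [← hπ]
    simp only [π, e2, b2 (band x) x xQ]

end Vale.Agent.P201
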