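import Vale.Agent.P201.Planar

/-
The contour order of a planar map along a breadth first spanning tree, and cutting a
non-crossing matching into pieces of bounded weight.
-/

namespace Vale.Agent.P201

open Equiv Equiv.Perm Classical

section Interval
variable {D : Type} (S : D → Prop) (pos : D → ℕ) (τ : D → D)

theorem exists_interval (hinj : ∀ x y, S x → S y → pos x = pos y → x = y)
    (hτ : ∀ x, S x → S (τ x)) (hττ : ∀ x, τ (τ x) = x)
    (hnc : ∀ a b, S a → S b → pos a < pos b → pos b < pos (τ a) → pos (τ a) < pos (τ b) → False)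
    (C : ℕ) (hC : 1 ≤ C) (W : Finset D) (hW : ∀ x ∈ W, S x) (n : ℕ) :
    ∀ u v, v - u = n → (∀ x, S x → u ≤ pos x → pos x < v → u ≤ pos (τ x) ∧ pos (τ x) < v) →
      C ≤ (W.filter fun x => u ≤ pos x ∧ pos x < v).card →
      ∃ u v, (∀ x, S x → u ≤ pos x → pos x < v → u ≤ pos (τ x) ∧ pos (τ x) < v) ∧
        C ≤ (W.filter fun x => u ≤ pos x ∧ pos x < v).card ∧
        (W.filter fun x => u ≤ pos x ∧ pos x < v).card ≤ 2 * C := by
  induction n using Nat.strong_induction_on with
  | _ n ih =>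
  intro u v hn hcl hw
  have huv : u < v := by
    obtain ⟨x, hx⟩ := Finset.card_pos.1 (lt_of_lt_of_le hC hw)
    have := (Finset.mem_filter.1 hx).2
    omega
  have one : ∀ q, (W.filter fun x => pos x = q).card ≤ 1 := by
    intro q
    refine Finset.card_le_one.2 fun x hx y hy => ?_
    have h1 := Finset.mem_filter.1 hx
    have h2 := Finset.mem_filter.1 hy
    exact hinj _ _ (hW _ h1.1) (hW _ h2.1) (h1.2.trans h2.2.symm)
  -- the partner position of the left end point
  obtain ⟨q, hq1, hq2, c1, c2⟩ : ∃ q, u ≤ q ∧ q < v ∧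
      (∀ x, S x → u + 1 ≤ pos x → pos x < q → u + 1 ≤ pos (τ x) ∧ pos (τ x) < q) ∧
      (∀ x, S x → q + 1 ≤ pos x → pos x < v → q + 1 ≤ pos (τ x) ∧ pos (τ x) < v) := by
    by_cases ha : ∃ a, S a ∧ pos a = u
    · obtain ⟨a, ha, hau⟩ := ha
      have h0 := hcl a ha (by omega) (by omega)
      have c1 : ∀ x, S x → u + 1 ≤ pos x → pos x < pos (τ a) →
          u + 1 ≤ pos (τ x) ∧ pos (τ x) < pos (τ a) := by
        intro x hx h1 h2
        have h3 := hcl x hx (by omega) (by omega)
        have h4 : pos (τ x) ≠ u := by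
          intro e
          have := hinj _ _ (hτ _ hx) ha (e.trans hau.symm)
          rw [← this, hττ] at h2
          omega
        have h5 : pos (τ x) ≠ pos (τ a) := by
          intro e
          have := hinj _ _ (hτ _ hx) (hτ _ ha) e
          have : x = a := by rw [← hττ x, this, hττ]
          rw [this] at h1
          omega
        have h6 : ¬ pos (τ a) < pos (τ x) := hnc a x ha hx (by omega) h2
        omega
      refine ⟨pos (τ a), h0.1, h0.2, c1, ?_⟩
      intro x hx h1 h2
      have h3 := hcl x hx (by omega) h2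
      have h4 : pos (τ x) ≠ u := by
        intro e
        have := hinj _ _ (hτ _ hx) ha (e.trans hau.symm)
        rw [← this, hττ] at h1
        omega
      have h5 : pos (τ x) ≠ pos (τ a) := by
        intro e
        have := hinj _ _ (hτ _ hx) (hτ _ ha) e
        have : x = a := by rw [← hττ x, this, hττ]
        rw [this] at h1
        omega
      have h6 := c1 (τ x) (hτ _ hx)
      rw [hττ] at h6
      omega
    · refine ⟨u, le_rfl, huv, fun x _ h1 h2 => by omega, ?_⟩
      intro x hx h1 h2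
      have h3 := hcl x hx (by omega) h2
      have h4 : pos (τ x) ≠ u := fun e => ha ⟨_, hτ _ hx, e⟩
      omega
  by_cases b1 : C ≤ (W.filter fun x => u + 1 ≤ pos x ∧ pos x < q).card
  · exact ih _ (by omega) _ _ rfl c1 b1
  by_cases b2 : C ≤ (W.filter fun x => q + 1 ≤ pos x ∧ pos x < v).card
  · exact ih _ (by omega) _ _ rfl c2 b2
  refine ⟨u, v, hcl, hw, ?_⟩
  have hsub : (W.filter fun x => u ≤ pos x ∧ pos x < v) ⊆
      ((W.filter fun x => pos x = u) ∪ (W.filter fun x => pos x = q)) ∪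
      ((W.filter fun x => u + 1 ≤ pos x ∧ pos x < q) ∪
        (W.filter fun x => q + 1 ≤ pos x ∧ pos x < v)) := by
    intro x hx
    simp only [Finset.mem_union, Finset.mem_filter] at hx ⊢
    have := hx.2
    simp only [hx.1, true_and]
    omega
  have h1 := Finset.card_le_card hsub
  have h2 := Finset.card_union_le ((W.filter fun x => pos x = u) ∪ (W.filter fun x => pos x = q))
    ((W.filter fun x => u + 1 ≤ pos x ∧ pos x < q) ∪
        (W.filter fun x => q + 1 ≤ pos x ∧ pos x < v))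
  have h3 := Finset.card_union_le (W.filter fun x => pos x = u) (W.filter fun x => pos x = q)
  have h4 := Finset.card_union_le (W.filter fun x => u + 1 ≤ pos x ∧ pos x < q)
    (W.filter fun x => q + 1 ≤ pos x ∧ pos x < v)
  have h5 := one u
  have h6 := one q
  omega

theorem exists_labels [Finite D] (hinj : ∀ x y, S x → S y → pos x = pos y → x = y)
    (hτ : ∀ x, S x → S (τ x)) (hττ : ∀ x, τ (τ x) = x)
    (hnc : ∀ a b, S a → S b → pos a < pos b → pos b < pos (τ a) → pos (τ a) < pos (τ b) → False)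
    (C : ℕ) (hC : 1 ≤ C) (n : ℕ) : ∀ W : Finset D, W.card = n → (∀ x ∈ W, S x) →
    ∃ (lab : ℕ → ℕ) (Bd : Finset ℕ), (∀ p, p ∉ Bd → lab (p + 1) = lab p) ∧
      (∀ x, S x → lab (pos (τ x)) = lab (pos x)) ∧
      (∀ k, (W.filter fun x => lab (pos x) = k).card ≤ 2 * C) ∧ Bd.card * C ≤ 2 * W.card := by
  induction n using Nat.strong_induction_on with
  | _ n ih =>
  intro W hn hW
  by_cases hc : W.card < C
  · refine ⟨fun _ => 0, ∅, fun _ _ => rfl, fun _ _ => rfl, fun k => ?_, by simp⟩
    have := Finset.card_filter_le W (fun x => (fun _ => 0 : ℕ → ℕ) (pos x) = k)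
    omega
  obtain ⟨N, hN⟩ := (Set.finite_range pos).bddAbove
  have hN' : ∀ x, pos x < N + 1 := fun x => Nat.lt_succ_of_le (hN ⟨x, rfl⟩)
  obtain ⟨u, v, hcl, h1, h2⟩ := exists_interval S pos τ hinj hτ hττ hnc C hC W hW _ 0 (N + 1) rfl
    (fun x _ _ _ => ⟨Nat.zero_le _, hN' _⟩)
    (by rw [Finset.filter_true_of_mem (fun x _ => ⟨Nat.zero_le _, hN' _⟩)]; omega)
  have hsplit := Finset.card_filter_add_card_filter_not (s := W)
    (fun x => u ≤ pos x ∧ pos x < v)
  obtain ⟨lab, Bd, l1, l2, l3, l4⟩ := ih _ (by omega)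
    (W.filter fun x => ¬ (u ≤ pos x ∧ pos x < v)) rfl
    (fun x hx => hW x (Finset.mem_filter.1 hx).1)
  refine ⟨fun p => if u ≤ p ∧ p < v then 0 else lab p + 1, insert (u - 1) (insert (v - 1) Bd),
    ?_, ?_, ?_, ?_⟩
  · intro p hp
    simp only [Finset.mem_insert, not_or] at hp
    have := l1 p hp.2.2
    dsimp only
    split_ifs <;> omega
  · intro x hx
    have k1 := hcl x hx
    have k2 := hcl (τ x) (hτ _ hx)
    rw [hττ] at k2
    have := l2 x hx
    dsimp only
    split_ifs <;> omega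
  · intro k
    rcases k with _ | k
    · refine le_trans (Finset.card_le_card ?_) h2
      intro x hx
      simp only [Finset.mem_filter] at hx ⊢
      refine ⟨hx.1, ?_⟩
      by_contra hh
      have := hx.2
      rw [if_neg hh] at this
      omega
    · refine le_trans (Finset.card_le_card ?_) (l3 k)
      intro x hx
      simp only [Finset.mem_filter] at hx ⊢
      have := hx.2
      by_cases hh : u ≤ pos x ∧ pos x < v
      · rw [if_pos hh] at this
        omega
      · rw [if_neg hh] at this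
        exact ⟨⟨hx.1, hh⟩, by omega⟩
  · have k1 := Finset.card_insert_le (u - 1) (insert (v - 1) Bd)
    have k2 := Finset.card_insert_le (v - 1) Bd
    have : (insert (u - 1) (insert (v - 1) Bd)).card * C ≤ (Bd.card + 2) * C :=
      Nat.mul_le_mul_right _ (by omega)
    rw [add_mul] at this
    omega

end Interval

section Contour
variable {D : Type} [Finite D]

theorem exists_cycle_index (f : Perm D) (e : D) : ∃ (s : ℕ) (ix : D → ℕ), ix e = 0 ∧
    ∀ y, sc f e y → ix y < s ∧ (∀ y', sc f e y' → ix y = ix y' → y = y') ∧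
      (ix (f y) = ix y + 1 ∨ (ix y + 1 = s ∧ f y = e)) := by
  have hper : e ∈ Function.periodicPts f := f.injective.mem_periodicPts e
  have hs := Function.minimalPeriod_pos_of_mem_periodicPts hper
  have H : ∀ y, ∃ n, sc f e y → n < Function.minimalPeriod f e ∧ f^[n] e = y := by
    intro y
    by_cases h : sc f e y
    · obtain ⟨n, hn⟩ := SameCycle.exists_nat_pow_eq h
      refine ⟨n % Function.minimalPeriod f e, fun _ => ⟨Nat.mod_lt _ hs, ?_⟩⟩
      rw [Function.iterate_mod_minimalPeriod_eq, Perm.iterate_eq_pow, hn]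
    · exact ⟨0, fun h' => absurd h' h⟩
  choose ix hix using H
  have he := hix e ((sc f).refl' e)
  refine ⟨Function.minimalPeriod f e, ix, ?_, fun y hy => ⟨(hix y hy).1, ?_, ?_⟩⟩
  · exact (Function.iterate_eq_iterate_iff_of_lt_minimalPeriod he.1 hs).1 he.2
  · intro y' hy' h
    rw [← (hix y hy).2, ← (hix y' hy').2, h]
  · have h1 := hix y hy
    have h2 := hix (f y) ((sc f).trans' hy (sc_apply f y))
    have h3 : f^[ix y + 1] e = f y := by rw [Function.iterate_succ_apply', h1.2]
    by_cases hh : ix y + 1 < Function.minimalPeriod f e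
    · exact Or.inl
        ((Function.iterate_eq_iterate_iff_of_lt_minimalPeriod h2.1 hh).1 (h2.2.trans h3.symm))
    · have : ix y + 1 = Function.minimalPeriod f e := by omega
      refine Or.inr ⟨this, ?_⟩
      rw [← h3, this]
      exact Function.iterate_minimalPeriod

/-- Points reached from the cycle of `r` crossing `n` edges. -/
def Reach (f τ : Perm D) (r : D) : ℕ → D → Prop
  | 0, d => sc f r d
  | n + 1, d => ∃ e, Reach f τ r n e ∧ sc f (τ e) d

theorem exists_levels (f τ : Perm D) (r : D) : ∃ lev : D → ℕ,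
    (∀ x y, sc f x y → lev x = lev y) ∧
    (∀ x, (sc f ⊔ sc τ) r x → lev (τ x) ≤ lev x + 1) ∧
    (∀ x, (sc f ⊔ sc τ) r x → lev x = 0 → sc f r x) ∧
    (∀ x k, (sc f ⊔ sc τ) r x → lev x = k + 1 → ∃ e, lev e = k ∧ sc f (τ e) x) := by
  have R1 : ∀ n x y, sc f x y → Reach f τ r n x → Reach f τ r n y := by
    intro n x y h hx
    cases n with
    | zero => exact (sc f).trans' hx h
    | succ n =>
      obtain ⟨e, h1, h2⟩ := hx
      exact ⟨e, h1, (sc f).trans' h2 h⟩
  have R2 : ∀ n x, Reach f τ r n x → Reach f τ r (n + 1) (τ x) :=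
    fun n x h => ⟨x, h, (sc f).refl' _⟩
  have R3 : ∀ x, (sc f ⊔ sc τ) r x → ∃ n, Reach f τ r n x := by
    intro x hx
    by_contra hn
    exact not_comp_of_inv (p := fun x => ∃ n, Reach f τ r n x)
      (fun y ⟨n, h⟩ => ⟨n, R1 n _ _ (sc_apply f y) h⟩) (fun y ⟨n, h⟩ => ⟨n + 1, R2 n y h⟩)
      ⟨0, (sc f).refl' r⟩ hn hx
  let lev : D → ℕ := fun x => sInf {n | Reach f τ r n x}
  have L1 : ∀ x n, Reach f τ r n x → lev x ≤ n := fun x n h => Nat.sInf_le h
  have L2 : ∀ x n, Reach f τ r n x → Reach f τ r (lev x) x :=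
    fun x n h => Nat.sInf_mem (s := {n | Reach f τ r n x}) ⟨n, h⟩
  refine ⟨lev, ?_, ?_, ?_, ?_⟩
  · intro x y h
    have : {n | Reach f τ r n x} = {n | Reach f τ r n y} :=
      Set.ext fun n => ⟨R1 n _ _ h, R1 n _ _ ((sc f).symm' h)⟩
    simp only [lev, this]
  · intro x hx
    obtain ⟨n, hn⟩ := R3 x hx
    exact L1 _ _ (R2 _ _ (L2 _ _ hn))
  · intro x hx h0
    obtain ⟨n, hn⟩ := R3 x hx
    have := L2 _ _ hn
    rw [h0] at this
    exact this
  · intro x k hx hk
    obtain ⟨n, hn⟩ := R3 x hx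
    have := L2 _ _ hn
    rw [hk] at this
    obtain ⟨e, h1, h2⟩ := this
    refine ⟨e, ?_, h2⟩
    have a1 := L1 _ _ h1
    have a2 := L1 _ _ (R1 _ _ _ h2 (R2 _ _ (L2 _ _ h1)))
    omega

/-- The invariant of the contour construction. -/
structure Cont (f τ : Perm D) (lev : D → ℕ) (S : Set D) (F T : Perm D) (N : ℕ) (pos : D → ℕ) :
    Prop where
  inv : ∀ x y, sc f x y → x ∈ S → y ∈ S
  planar : Planar F T
  out : ∀ x, x ∉ S → F x = f x
  tree : ∀ x, T x = τ x ∨ (x ∈ S ∧ τ x ∈ S ∧ (pos (τ x) = pos x + 1 ∨ pos x = pos (τ x) + 1))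
  lt : ∀ x ∈ S, pos x < N
  inj : ∀ x ∈ S, ∀ y ∈ S, pos x = pos y → x = y
  mem : ∀ x ∈ S, F x ∈ S
  step : ∀ x ∈ S, pos (F x) = pos x + 1 ∨ (pos x + 1 = N ∧ pos (F x) = 0)
  hull : ∀ x ∈ S, ∀ y ∈ S, ∀ z ∈ S, sc f x z → pos x ≤ pos y → pos y ≤ pos z →
    lev x ≤ lev y ∧ (lev y = lev x → sc f x y)

theorem Cont.extend {f τ : Perm D} {lev : D → ℕ} {S : Set D} {F T : Perm D} {N : ℕ}
    {pos : D → ℕ} (h : Cont f τ lev S F T N pos) (hτ : ∀ x, τ (τ x) = x)
    (hlev : ∀ x y, sc f x y → lev x = lev y) {d : D} (hd : d ∈ S) (he : τ d ∉ S)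
    (hl : lev (τ d) = lev d + 1) :
    ∃ F' T' N' pos', Cont f τ lev (S ∪ {y | sc f (τ d) y}) F' T' N' pos' := by
  set e := τ d with hedef
  obtain ⟨s, ix, ix0, hix⟩ := exists_cycle_index f e
  have disj : ∀ y, sc f e y → y ∉ S := fun y hy hS => he (h.inv _ _ ((sc f).symm' hy) hS)
  have hee : sc f e e := (sc f).refl' e
  have he' : sc f e (f⁻¹ e) := (sc f).symm' (by simpa using sc_apply f (f⁻¹ e))
  have hFe : F⁻¹ e = f⁻¹ e := by
    rw [Perm.inv_eq_iff_eq, h.out _ (disj _ he')]
    simp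
  have hTd : T d = e := by
    rcases h.tree d with k | k
    · exact k
    · exact absurd k.2.1 he
  have hTe : T e = d := by
    rcases h.tree e with k | k
    · rw [k, hedef, hτ]
    · exact absurd k.1 he
  have hsc : ¬ sc F d e := fun k => he (sc_inv (p := fun x => x ∈ S) h.mem k hd)
  have hP := h.planar.contract hsc hTd hTe
  rw [hFe] at hP
  let pos' : D → ℕ := fun y =>
    if sc f e y then pos d + 1 + ix y else if pos y ≤ pos d then pos y else pos y + s
  have p1 : ∀ y, sc f e y → pos' y = pos d + 1 + ix y := fun y hy => if_pos hy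
  have p2 : ∀ y ∈ S, (pos y ≤ pos d ∧ pos' y = pos y) ∨ (pos d < pos y ∧ pos' y = pos y + s) := by
    intro y hy
    have : ¬ sc f e y := fun k => disj _ k hy
    simp only [pos', if_neg this]
    split_ifs <;> omega
  have hde : d ≠ e := fun k => he (k ▸ hd)
  have hde' : d ≠ f⁻¹ e := fun k => disj _ he' (k ▸ hd)
  have F1 : (F * swap d (f⁻¹ e)) d = e := by
    rw [Perm.mul_apply, swap_apply_left, ← hFe]
    simp
  have F2 : (F * swap d (f⁻¹ e)) (f⁻¹ e) = F d := by rw [Perm.mul_apply, swap_apply_right]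
  have F3 : ∀ x, x ≠ d → x ≠ f⁻¹ e → (F * swap d (f⁻¹ e)) x = F x := fun x h1 h2 => by
    rw [Perm.mul_apply, swap_apply_of_ne_of_ne h1 h2]
  have hlast : ix (f⁻¹ e) + 1 = s := by
    rcases (hix _ he').2.2 with k | k
    · rw [show f (f⁻¹ e) = e by simp, ix0] at k
      omega
    · exact k.1
  have hdN := h.lt d hd
  have pd := p2 d hd
  have pe := p1 e hee
  refine ⟨_, _, N + s, pos', ?_, hP, ?_, ?_, ?_, ?_, ?_, ?_, ?_⟩
  · rintro x y hxy (hx | hx)
    · exact Or.inl (h.inv _ _ hxy hx)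
    · exact Or.inr ((sc f).trans' hx hxy)
  · intro x hx
    simp only [Set.mem_union, Set.mem_ofPred_eq, not_or] at hx
    rw [F3 x (fun k => hx.1 (k ▸ hd)) (fun k => hx.2 (k ▸ he')), h.out _ hx.1]
  · intro x
    by_cases c1 : x = d
    · subst c1
      exact Or.inr ⟨Or.inl hd, Or.inr hee, Or.inl (by rw [← hedef]; omega)⟩
    by_cases c2 : x = e
    · subst c2
      refine Or.inr ⟨Or.inr hee, ?_, Or.inr ?_⟩
      · rw [hedef, hτ]
        exact Or.inl hd
      · have : τ e = d := by rw [hedef, hτ]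
        rw [this]
        omega
    rw [Perm.mul_apply, swap_apply_of_ne_of_ne c1 c2]
    rcases h.tree x with k | ⟨k1, k2, k3⟩
    · exact Or.inl k
    · refine Or.inr ⟨Or.inl k1, Or.inl k2, ?_⟩
      have a1 := p2 _ k1
      have a2 := p2 _ k2
      have a3 : pos x ≠ pos d := fun k => c1 (h.inj _ k1 _ hd k)
      have a4 : pos (τ x) ≠ pos d := fun k => c2 (by rw [hedef, ← h.inj _ k2 _ hd k, hτ])
      omega
  · rintro x (hx | hx)
    · have a1 := p2 _ hx
      have a2 := h.lt _ hx
      omega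
    · have a1 := p1 _ hx
      have a2 := (hix _ hx).1
      omega
  · rintro x (hx | hx) y (hy | hy) hxy
    · have a1 := p2 _ hx
      have a2 := p2 _ hy
      exact h.inj _ hx _ hy (by omega)
    · have a1 := p2 _ hx
      have a2 := p1 _ hy
      have a3 := (hix _ hy).1
      omega
    · have a1 := p2 _ hy
      have a2 := p1 _ hx
      have a3 := (hix _ hx).1
      omega
    · have a1 := p1 _ hy
      have a2 := p1 _ hx
      exact (hix _ hx).2.1 _ hy (by omega)
  · rintro x (hx | hx)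
    · by_cases c1 : x = d
      · rw [c1, F1]
        exact Or.inr hee
      · rw [F3 x c1 (fun k => disj _ he' (k ▸ hx))]
        exact Or.inl (h.mem _ hx)
    · by_cases c2 : x = f⁻¹ e
      · rw [c2, F2]
        exact Or.inl (h.mem _ hd)
      · rw [F3 x (fun k => disj _ hx (k ▸ hd)) c2, h.out _ (disj _ hx)]
        exact Or.inr ((sc f).trans' hx (sc_apply f x))
  · rintro x (hx | hx)
    · by_cases c1 : x = d
      · rw [c1, F1]
        omega
      · rw [F3 x c1 (fun k => disj _ he' (k ▸ hx))]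
        have a1 := p2 _ hx
        have a2 := p2 _ (h.mem _ hx)
        have a3 := h.step _ hx
        have a4 : pos x ≠ pos d := fun k => c1 (h.inj _ hx _ hd k)
        omega
    · by_cases c2 : x = f⁻¹ e
      · rw [c2, F2]
        have a1 := p1 _ he'
        have a2 := p2 _ (h.mem _ hd)
        have a3 := h.step _ hd
        omega
      · rw [F3 x (fun k => disj _ hx (k ▸ hd)) c2, h.out _ (disj _ hx)]
        have a1 := p1 _ hx
        have a2 := p1 _ ((sc f).trans' hx (sc_apply f x))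
        rcases (hix _ hx).2.2 with k | k
        · omega
        · exact absurd (by rw [← k.2]; simp) c2
  · rintro x (hx | hx) y (hy | hy) z hz hxz h1 h2
    · have hz' := h.inv _ _ hxz hx
      have a1 := p2 _ hx
      have a2 := p2 _ hy
      have a3 := p2 _ hz'
      exact h.hull _ hx _ hy _ hz' hxz (by omega) (by omega)
    · have hz' := h.inv _ _ hxz hx
      have a1 := p2 _ hx
      have a2 := p1 _ hy
      have a3 := p2 _ hz'
      have a4 := (hix _ hy).1
      have a5 := (h.hull _ hx _ hd _ hz' hxz (by omega) (by omega)).1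
      have a6 := hlev _ _ hy
      exact ⟨by omega, fun k => by omega⟩
    · have hz' : sc f e z := (sc f).trans' hx hxz
      have a1 := p1 _ hx
      have a2 := p2 _ hy
      have a3 := p1 _ hz'
      have a4 := (hix _ hz').1
      omega
    · have := (sc f).trans' ((sc f).symm' hx) hy
      exact ⟨(hlev _ _ this).le, fun _ => this⟩

theorem exists_contour {f τ : Perm D} (hP : Planar f τ) (hτ : ∀ x, τ (τ x) = x) (r : D) :
    ∃ (lev pos : D → ℕ), (∀ x y, sc f x y → lev x = lev y) ∧
      (∀ x, (sc f ⊔ sc τ) r x → lev (τ x) ≤ lev x + 1) ∧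
      (∀ x y, (sc f ⊔ sc τ) r x → (sc f ⊔ sc τ) r y → pos x = pos y → x = y) ∧
      (∀ a b, (sc f ⊔ sc τ) r a → (sc f ⊔ sc τ) r b → pos a < pos b → pos b < pos (τ a) →
        pos (τ a) < pos (τ b) → False) ∧
      (∀ x y z, (sc f ⊔ sc τ) r x → (sc f ⊔ sc τ) r y → sc f x z → pos x ≤ pos y →
        pos y ≤ pos z → lev y = lev x → sc f x y) := by
  obtain ⟨lev, l1, l2, l3, l4⟩ := exists_levels f τ r
  have cf : ∀ {x y}, sc f x y → (sc f ⊔ sc τ) x y := fun h => (le_sup_left : sc f ≤ _) h
  have cτ : ∀ x, (sc f ⊔ sc τ) x (τ x) := fun x => (le_sup_right : sc τ ≤ _) (sc_apply τ x)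
  have h0 : ∃ F T N pos, Cont f τ lev {y | sc f r y} F T N pos := by
    obtain ⟨s, ix, ix0, hix⟩ := exists_cycle_index f r
    refine ⟨f, τ, s, ix, fun x y hxy hx => (sc f).trans' hx hxy, hP, fun _ _ => rfl,
      fun _ => Or.inl rfl, fun x hx => (hix x hx).1, fun x hx y hy => (hix x hx).2.1 y hy,
      fun x hx => (sc f).trans' hx (sc_apply f x), ?_, ?_⟩
    · intro x hx
      rcases (hix x hx).2.2 with k | k
      · exact Or.inl k
      · exact Or.inr ⟨k.1, by rw [k.2, ix0]⟩
    · intro x hx y hy z _ _ _ _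
      have := (sc f).trans' ((sc f).symm' hx) hy
      exact ⟨(l1 _ _ this).le, fun _ => this⟩
  obtain ⟨S, ⟨hrS, F, T, N, pos, hS⟩, hmax⟩ := Set.exists_max_image
    {S : Set D | r ∈ S ∧ ∃ F T N pos, Cont f τ lev S F T N pos} Set.ncard (Set.toFinite _)
    ⟨_, (sc f).refl' r, h0⟩
  have hall : ∀ n x, lev x = n → (sc f ⊔ sc τ) r x → x ∈ S := by
    intro n
    induction n with
    | zero => exact fun x h1 h2 => hS.inv _ _ (l3 x h2 h1) hrS
    | succ n ih =>
      intro x h1 h2
      obtain ⟨e, he1, he2⟩ := l4 x n h2 h1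
      have heS : e ∈ S := ih e he1
        ((sc f ⊔ sc τ).trans' h2 ((sc f ⊔ sc τ).symm' ((sc f ⊔ sc τ).trans' (cτ e) (cf he2))))
      by_contra hx
      have hτe : τ e ∉ S := fun k => hx (hS.inv _ _ he2 k)
      have := hmax _ ⟨Or.inl hrS, hS.extend hτ l1 heS hτe (by rw [l1 _ _ he2]; omega)⟩
      have h3 : S ⊂ S ∪ {y | sc f (τ e) y} :=
        ⟨Set.subset_union_left, fun k => hx (k (Or.inr he2))⟩
      have := Set.ncard_lt_ncard h3 (Set.toFinite _)
      omega
  have hQ : ∀ x, (sc f ⊔ sc τ) r x → x ∈ S := fun x => hall _ x rfl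
  have same : ∀ k, ∀ x ∈ S, ∀ y ∈ S, pos y = pos x + k → sc F x y := by
    intro k
    induction k with
    | zero => exact fun x hx y hy h => (hS.inj _ hy _ hx h) ▸ (sc F).refl' _
    | succ k ih =>
      intro x hx y hy h
      have a1 := hS.step x hx
      have a2 := hS.lt y hy
      exact (sc F).trans' (sc_apply F x) (ih _ (hS.mem x hx) y hy (by omega))
  refine ⟨lev, pos, l1, l2, fun x y hx hy => hS.inj _ (hQ x hx) _ (hQ y hy), ?_, ?_⟩
  · intro a b ha hb h1 h2 h3
    have ha' := hQ _ ha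
    have hb' := hQ _ hb
    have hc' := hQ _ ((sc f ⊔ sc τ).trans' ha (cτ a))
    have hd' := hQ _ ((sc f ⊔ sc τ).trans' hb (cτ b))
    have t1 : T a = τ a := (hS.tree a).resolve_right (fun k => by omega)
    have t2 : T (τ a) = a := by
      have := (hS.tree (τ a)).resolve_right (fun k => by rw [hτ] at k; omega)
      rwa [hτ] at this
    have t3 : T b = τ b := (hS.tree b).resolve_right (fun k => by omega)
    have t4 : T (τ b) = b := by
      have := (hS.tree (τ b)).resolve_right (fun k => by rw [hτ] at k; omega)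
      rwa [hτ] at this
    have ne : ∀ {x y : D}, pos x ≠ pos y → x ≠ y := fun h e => h (by rw [e])
    refine hS.planar.no_cross t1 t2 t3 t4 (ne (by omega)) (ne (by omega)) (ne (by omega))
      (ne (by omega)) (ne (by omega)) (same (pos (τ a) - pos a) _ ha' _ hc' (by omega))
      (same (pos (τ b) - pos b) _ hb' _ hd' (by omega)) ?_
    intro k
    have := sc_inv (p := fun x => x ∈ S ∧ pos a < pos x ∧ pos x ≤ pos (τ a)) ?_ k
      ⟨hb', h1, h2.le⟩
    · omega
    · rintro x ⟨hx, x1, x2⟩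
      have a0 := hS.lt _ hd'
      by_cases c : x = τ a
      · rw [c, Perm.mul_apply, swap_apply_right]
        have := hS.step a ha'
        exact ⟨hS.mem _ ha', by omega, by omega⟩
      · rw [Perm.mul_apply, swap_apply_of_ne_of_ne (ne (by omega)) c]
        have a1 := hS.step x hx
        have a2 : pos x ≠ pos (τ a) := fun k => c (hS.inj _ hx _ hc' k)
        exact ⟨hS.mem _ hx, by omega, by omega⟩
  · intro x y z hx hy hxz h1 h2 h3
    exact (hS.hull _ (hQ _ hx) _ (hQ _ hy) _ (hS.inv _ _ hxz (hQ _ hx)) hxz h1 h2).2 h3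

end Contour

end Vale.Agent.P201
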