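import Vale.Agent.P201.Match

/-
The vertex types, built from the Fano plane with one point doubled.
-/

namespace Vale.Agent.P201

/-- The letters. -/
abbrev Lt := Fin 4 × Bool

/-- Names of the letters: `1, ..., 6` are points, `7` and `8` replace the point `0`. -/
def cd (a : Lt) : ℕ := if a.2 then ![7, 8, 3, 4] a.1 else ![2, 1, 6, 5] a.1

/-- The kinds of vertices. -/
abbrev Kd := Bool × (Fin 31 ⊕ Fin 8)

/-- The letters at a vertex of a given kind. -/
def ty : Kd → List ℕ
  | (_, Sum.inl s) => ![[7, 8, 1, 3], [1, 2, 4], [2, 3, 5], [3, 4, 6], [4, 5, 7, 8], [5, 6, 1],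
      [6, 7, 8, 2], [7, 8, 1, 3], [1, 2, 4], [2, 3, 5], [3, 4, 6], [4, 5, 7, 8], [5, 6, 1],
      [6, 7, 8, 2], [1, 2, 4], [2, 3, 5], [3, 4, 6], [5, 6, 1], [1, 2, 4], [2, 3, 5], [3, 4, 6],
      [5, 6, 1], [7, 1, 3], [4, 5, 7], [6, 7, 2], [8, 1, 3], [4, 5, 8], [6, 8, 2], [7, 8], [7, 8],
      [7, 8]] s
  | (g, Sum.inr k) => ![[7, 8, 1, 3], [1, 2, 4], [2, 3, 5], [3, 4, 6], [4, 5, 7, 8], [5, 6, 1],
      [6, 7, 8, 2], if g then [6, 8, 2] else [7, 1, 3]] k

/-- Membership of a letter. -/
def tk (k : Kd) (a : Lt) : Bool := (ty k).contains (cd a)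

/-- The side of a vertex. -/
def sk : Kd → Bool
  | (_, Sum.inl s) => s.val < 14
  | (_, Sum.inr k) => k.val < 7

/-- The coefficient of a vertex. -/
def ck : Kd → ZMod 2
  | (_, Sum.inl s) => if s.val < 28 then 1 else 0
  | (_, Sum.inr _) => 1

/-- The colour of a vertex. -/
def colk (k : Kd) : Bool × Bool := (sk k, k.1)

/-- The two letters replacing the doubled point. -/
def sp (a : Lt) : Bool := a.2 && decide (a.1.val < 2)

/-- Ordinary turns. -/
def nsb (a b : Lt) : Bool := !(sp (linv a) && sp b)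

/-- The vertices. -/
abbrev Vx (n : ℕ) := Bool × ((Fin 31 × Fin n) ⊕ Fin 8)

/-- The kind of a vertex. -/
def kind {n : ℕ} (v : Vx n) : Kd := (v.1, Sum.map Prod.fst id v.2)

theorem sum_kind {M : Type} [AddCommMonoid M] (n : ℕ) (F : Kd → M) :
    ∑ v : Vx n, F (kind v) = n • ∑ p : Bool × Fin 31, F (p.1, Sum.inl p.2) +
      ∑ p : Bool × Fin 8, F (p.1, Sum.inr p.2) := by
  simp only [Fintype.sum_prod_type, Fintype.sum_sum_type, kind, Sum.map_inl, Sum.map_inr, id,
    Finset.sum_const, Finset.card_univ, Fintype.card_fin, Finset.sum_add_distrib, Finset.smul_sum]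

/-- Counting slots. -/
def cS (P : Kd → Bool) : ℕ := ∑ p : Bool × Fin 31, if P (p.1, Sum.inl p.2) then 1 else 0

/-- Counting extra vertices. -/
def cX (P : Kd → Bool) : ℕ := ∑ p : Bool × Fin 8, if P (p.1, Sum.inr p.2) then 1 else 0

theorem ncard_kind (n : ℕ) (P : Kd → Bool) :
    {v : Vx n | P (kind v) = true}.ncard = n * cS P + cX P := by
  rw [cS, cX, ← smul_eq_mul, ← sum_kind n fun k => if P k then 1 else 0, ← Finset.card_filter,
    ← Set.ncard_coe_finset]
  simp

theorem deg_le : ∀ k : Kd, (Finset.univ.filter fun a => tk k a = true).card ≤ 4 := by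
  decide +kernel

theorem class_cnt : ∀ (a : Lt) (c : Bool × Bool),
    cS (fun k => tk k a && colk k == c) = 6 ∧ cX (fun k => tk k a && colk k == c) ≤ 3 ∧
    cX (fun k => tk k a && colk k == c) =
      cX (fun k => tk k (linv a) && colk k == (c.1, !c.2)) := by
  decide +kernel

theorem pair_cnt : ∀ (c : Bool × Bool) (a b : Lt), b ≠ linv a → nsb a b = true →
    cS (fun k => colk k == c && (tk k (linv a) && tk k b)) ≤ 2 ∧
    cX (fun k => colk k == c && (tk k (linv a) && tk k b)) ≤ 1 := by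
  decide +kernel

theorem parity : ∀ k k' : Kd, sk k = true → sk k' = false →
    ((Finset.univ.filter fun a => tk k a = true ∧ tk k' a = true).card : ZMod 2) = ck k' := by
  decide +kernel

theorem side_cnt : cS (fun k => sk k && !k.1) = 14 ∧ cX (fun k => sk k && !k.1) = 7 := by
  decide +kernel

theorem coef_cnt :
    (∑ p : Bool × Fin 31, if sk (p.1, Sum.inl p.2) = false ∧ p.1 = false then
      ck (p.1, Sum.inl p.2) else 0) = 0 ∧
    (∑ p : Bool × Fin 8, if sk (p.1, Sum.inr p.2) = false ∧ p.1 = false then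
      ck (p.1, Sum.inr p.2) else 0) = 1 := by
  decide +kernel

theorem nsb_symm : ∀ a b : Lt, nsb a b = true → nsb (linv b) (linv a) = true := by decide

theorem nsb_cons : ∀ a b c : Lt, nsb a b = true ∨ nsb b c = true := by decide

/-- The potential for the count of labelings. -/
noncomputable def hh (a : Lt) : ℝ := if sp (linv a) then 19 / 10 else 1

theorem one_le_hh (a : Lt) : 1 ≤ hh a := by
  unfold hh
  split_ifs <;> norm_num

theorem sum_hh : ∑ a, hh a ≤ 10 := by
  simp [Fintype.sum_prod_type, Fin.sum_univ_four, hh, sp, linv]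
  norm_num

theorem ker_hh (a : Lt) : ∑ b, (if b = linv a then 0 else
    if nsb a b = true then (44 / 5 : ℝ)⁻¹ else 1) * hh b ≤ hh a := by
  obtain ⟨s, b⟩ := a
  fin_cases s <;> cases b <;>
    simp [Fintype.sum_prod_type, Fin.sum_univ_four, hh, sp, linv, nsb] <;> norm_num

end Vale.Agent.P201
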