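import Vale.Agent.P201.Match

/-
Folding labelled planar matchings, and the dual map of a map with triangular faces.
-/

namespace Vale.Agent.P201

open Equiv Equiv.Perm Classical

/-- A labelled planar matching on the set `Z`. -/
structure Good {Ω X G : Type} [Group G] (φ : Perm Ω) (lab : Ω → X × Bool) (pos : Ω → G)
    (ev : X × Bool → G) (Z : Ω → Prop) (μ : Perm Ω) : Prop where
  invol : ∀ x, μ (μ x) = x
  planar : Planar φ μ
  mem : ∀ x, Z x → Z (μ x)
  hlab : ∀ x, Z x → lab (μ x) = linv (lab x)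
  hpos : ∀ x, Z x → pos (μ x) = pos x * ev (lab x)

section
variable {Ω X G : Type} [Group G] {φ : Perm Ω} {lab : Ω → X × Bool} {pos : Ω → G}
  {ev : X × Bool → G} {Z : Ω → Prop} {μ : Perm Ω}

theorem Good.fold [Finite Ω] (h : Good φ lab pos ev Z μ) {x x' : Ω} (hx : Z x) (hx' : Z x')
    (h1 : lab x' = linv (lab x)) (h2 : pos x' = pos x * ev (lab x))
    (hs : sc (φ * μ) (μ x') x) : ∃ μ', Good φ lab pos ev Z μ' ∧ μ' x = x' ∧
      ∀ y, y ≠ x → y ≠ x' → μ y ≠ x → μ y ≠ x' → μ' y = μ y := by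
  have n1 : x ≠ x' := fun k => linv_ne (lab x) (by rw [← h1, ← k])
  have n2 : μ x' ≠ x' := fun k => linv_ne (lab x') (by rw [← h.hlab _ hx', k])
  have n3 : x ≠ μ x := fun k => linv_ne (lab x) (by rw [← h.hlab _ hx, ← k])
  have sy : ∀ {β : Type} (F : Ω → β), F x' = F (μ x) → ∀ y, F (swap x' (μ x) y) = F y :=
    fun F hF y => Equiv.apply_swap_eq_self hF y
  have s1 := sy lab (h1.trans (h.hlab _ hx).symm)
  have s2 := sy pos (h2.trans (h.hpos _ hx).symm)
  have s3 := sy Z (propext ⟨fun _ => h.mem _ hx, fun _ => hx'⟩)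
  refine ⟨swap x' (μ x) * μ * swap x' (μ x), ⟨?_, h.planar.fold h.invol n1 n2 hs, ?_, ?_, ?_⟩,
    ?_, ?_⟩
  · intro y
    simp [h.invol]
  · intro y hy
    simp only [Perm.mul_apply]
    rw [s3]
    exact h.mem _ (by rwa [s3])
  · intro y hy
    simp only [Perm.mul_apply]
    rw [s1, h.hlab _ (by rwa [s3]), s1]
  · intro y hy
    simp only [Perm.mul_apply]
    rw [s2, h.hpos _ (by rwa [s3]), s1, s2]
  · simp only [Perm.mul_apply]
    rw [swap_apply_of_ne_of_ne n1 n3, swap_apply_right]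
  · intro y k1 k2 k3 k4
    simp only [Perm.mul_apply]
    rw [swap_apply_of_ne_of_ne k2 (fun k => k3 (by rw [k, h.invol])),
      swap_apply_of_ne_of_ne k4 (fun k => k1 (μ.injective k))]

theorem Good.mono (h : Good φ lab pos ev Z μ) {Z' : Ω → Prop} (h1 : ∀ x, Z' x → Z x)
    (h2 : ∀ x, Z x → ¬ Z' x → ¬ Z' (μ x)) : Good φ lab pos ev Z' μ := by
  refine ⟨h.invol, h.planar, fun x hx => ?_, fun x hx => h.hlab x (h1 x hx),
    fun x hx => h.hpos x (h1 x hx)⟩
  by_contra hn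
  have := h2 _ (h.mem _ (h1 _ hx)) hn
  rw [h.invol] at this
  exact this hx

end

theorem exists_restrict {Ω : Type} [Finite Ω] (g : Perm Ω) (p : Ω → Prop)
    (hp : ∀ x, p x → p (g x)) :
    ∃ g' : Perm Ω, (∀ x, p x → g' x = g x) ∧ ∀ x, ¬ p x → g' x = x := by
  have hp' : ∀ x, p (g x) ↔ p x :=
    fun x => ⟨sc_inv hp ((sc g).symm' (sc_apply g x)), hp x⟩
  exact ⟨ofSubtype (g.subtypePerm hp'), fun x hx => ofSubtype_subtypePerm_of_mem hp' hx,
    fun x hx => ofSubtype_subtypePerm_of_not_mem hp' hx⟩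

theorem nq_le_add3 {α β γ δ : Type} [Finite β] [Finite γ] [Finite δ] (r : Setoid α)
    (s : Setoid β) (t : Setoid γ) (k : β → α) (k' : γ → α) (k'' : δ → α)
    (hk : ∀ x y, s x y → r (k x) (k y)) (hk' : ∀ x y, t x y → r (k' x) (k' y))
    (hs : ∀ a, (∃ b, r (k b) a) ∨ (∃ c, r (k' c) a) ∨ ∃ d, r (k'' d) a) :
    nq r ≤ nq s + nq t + Nat.card δ := by
  unfold nq
  rw [← Nat.card_sum, ← Nat.card_sum]
  refine Nat.card_le_card_of_surjective (Sum.elim (Sum.elim
    (Quotient.map' (s₁ := s) (s₂ := r) k hk) (Quotient.map' (s₁ := t) (s₂ := r) k' hk'))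
    (fun d => Quotient.mk r (k'' d))) ?_
  intro q
  obtain ⟨a, rfl⟩ := Quotient.exists_rep q
  rcases hs a with ⟨b, hb⟩ | ⟨c, hc⟩ | ⟨d, hd⟩
  · exact ⟨Sum.inl (Sum.inl (Quotient.mk s b)), Quotient.sound hb⟩
  · exact ⟨Sum.inl (Sum.inr (Quotient.mk t c)), Quotient.sound hc⟩
  · exact ⟨Sum.inr d, Quotient.sound hd⟩

theorem sc_map {α β : Type} [Finite β] {f : Perm β} {r : Setoid α} (k : β → α)
    (h : ∀ x, r (k x) (k (f x))) : ∀ x y, sc f x y → r (k x) (k y) :=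
  fun _ _ hxy => (sc_le_iff (r := Setoid.comap k r)).2 h hxy

theorem planar_dual {Ω D : Type} [Finite Ω] [Finite D] {φ μ : Perm Ω} {σ τ : Perm D}
    (hP : Planar φ μ) (emb : D → Fin 3 → Ω)
    (hinj : ∀ t i t' i', emb t i = emb t' i' → t = t' ∧ i = i')
    (hφ : ∀ t i, φ (emb t i) = emb t (i + 1)) (h1 : ∀ t, μ (emb t 1) = emb (τ t) 1)
    (h2 : ∀ t, μ (emb t 2) = emb (σ t) 0) (h0 : ∀ t, μ (emb (σ t) 0) = emb t 2) :
    Planar σ τ := by
  let Z : Ω → Prop := fun x => ∃ t i, x = emb t i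
  have h0' : ∀ t, μ (emb t 0) = emb (σ⁻¹ t) 2 := fun t => by rw [← h0]; simp
  have fin3 : ∀ i : Fin 3, i = 0 ∨ i = 1 ∨ i = 2 := by decide
  obtain ⟨f, f1, f2⟩ := exists_restrict φ Z (by
    rintro _ ⟨t, i, rfl⟩
    exact ⟨t, i + 1, hφ t i⟩)
  obtain ⟨g, g1, g2⟩ := exists_restrict μ Z (by
    rintro _ ⟨t, i, rfl⟩
    rcases fin3 i with rfl | rfl | rfl
    · exact ⟨_, _, h0' t⟩
    · exact ⟨_, _, h1 t⟩
    · exact ⟨_, _, h2 t⟩)
  have P : Planar f g := ((hP.restrict Z g1 g2).symm.restrict Z f1 f2).symm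
  have fe : ∀ t i, f (emb t i) = emb t (i + 1) := fun t i => by rw [f1 _ ⟨t, i, rfl⟩, hφ]
  have g0 : ∀ t, g (emb t 0) = emb (σ⁻¹ t) 2 := fun t => by rw [g1 _ ⟨t, 0, rfl⟩, h0']
  have g1' : ∀ t, g (emb t 1) = emb (τ t) 1 := fun t => by rw [g1 _ ⟨t, 1, rfl⟩, h1]
  have g2' : ∀ t, g (emb t 2) = emb (σ t) 0 := fun t => by rw [g1 _ ⟨t, 2, rfl⟩, h2]
  have c0 : Nat.card D * 3 + Nat.card {x // ¬ Z x} ≤ Nat.card Ω := by
    have : Nat.card D * 3 = Nat.card (D × Fin 3) := by simp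
    rw [this, ← Nat.card_sum]
    refine Nat.card_le_card_of_injective (Sum.elim (fun p => emb p.1 p.2) Subtype.val) ?_
    rintro (⟨t, i⟩ | ⟨x, hx⟩) (⟨t', i'⟩ | ⟨x', hx'⟩) h
    · obtain ⟨rfl, rfl⟩ := hinj _ _ _ _ h
      rfl
    · exact absurd ⟨t, i, h.symm⟩ hx'
    · exact absurd ⟨t', i', h⟩ hx
    · obtain rfl : x = x' := h
      rfl
  have c1 : nq (sc f) ≤ Nat.card D + Nat.card {x // ¬ Z x} := by
    rw [← nq_bot, ← nq_bot]
    refine nq_le_add _ _ _ (fun t => emb t 0) Subtype.val ?_ ?_ ?_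
    · rintro x y rfl
      exact (sc f).refl' _
    · rintro x y rfl
      exact (sc f).refl' _
    · intro a
      by_cases ha : Z a
      · obtain ⟨t, i, rfl⟩ := ha
        have a1 := sc_apply f (emb t 0)
        have a2 := sc_apply f (emb t 1)
        rw [fe] at a1 a2
        refine Or.inl ⟨t, ?_⟩
        rcases fin3 i with rfl | rfl | rfl
        · exact (sc f).refl' _
        · exact a1
        · exact (sc f).trans' a1 a2
      · exact Or.inr ⟨⟨a, ha⟩, (sc f).refl' _⟩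
  have c2 : nq (sc g) ≤ Nat.card D + nq (sc τ) + Nat.card {x // ¬ Z x} := by
    rw [← nq_bot (α := D)]
    refine nq_le_add3 _ _ _ (fun t => emb t 0) (fun t => emb t 1) Subtype.val ?_ ?_ ?_
    · rintro x y rfl
      exact (sc g).refl' _
    · refine sc_map _ fun t => ?_
      rw [← g1']
      exact sc_apply g _
    · intro a
      by_cases ha : Z a
      · obtain ⟨t, i, rfl⟩ := ha
        rcases fin3 i with rfl | rfl | rfl
        · exact Or.inl ⟨t, (sc g).refl' _⟩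
        · exact Or.inr (Or.inl ⟨t, (sc g).refl' _⟩)
        · refine Or.inl ⟨σ t, (sc g).symm' ?_⟩
          rw [← g2']
          exact sc_apply g _
      · exact Or.inr (Or.inr ⟨⟨a, ha⟩, (sc g).refl' _⟩)
  have c3 : nq (sc (f * g)) ≤ nq (sc σ) + nq (sc (σ * τ)) + Nat.card {x // ¬ Z x} := by
    have b1 : ∀ t, sc (f * g) (emb t 1) (emb (τ t) 2) := fun t => by
      have := sc_apply (f * g) (emb t 1)
      rwa [Perm.mul_apply, g1', fe] at this
    have b2 : ∀ t, sc (f * g) (emb t 2) (emb (σ t) 1) := fun t => by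
      have := sc_apply (f * g) (emb t 2)
      rwa [Perm.mul_apply, g2', fe] at this
    refine nq_le_add3 _ _ _ (fun t => emb t 0) (fun t => emb t 1) Subtype.val ?_ ?_ ?_
    · refine sc_map _ fun t => (sc _).symm' ?_
      have := sc_apply (f * g) (emb (σ t) 0)
      rw [Perm.mul_apply, g0, fe] at this
      simpa using this
    · exact sc_map _ fun t => (sc _).trans' (b1 t) (b2 _)
    · intro a
      by_cases ha : Z a
      · obtain ⟨t, i, rfl⟩ := ha
        rcases fin3 i with rfl | rfl | rfl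
        · exact Or.inl ⟨t, (sc _).refl' _⟩
        · exact Or.inr (Or.inl ⟨t, (sc _).refl' _⟩)
        · exact Or.inr (Or.inl ⟨σ t, (sc _).symm' (b2 t)⟩)
      · exact Or.inr (Or.inr ⟨⟨a, ha⟩, (sc _).refl' _⟩)
  have c4 : nq (sc σ ⊔ sc τ) + Nat.card {x // ¬ Z x} ≤ nq (sc f ⊔ sc g) := by
    let k : Ω → Quotient (sc σ ⊔ sc τ) ⊕ {x // ¬ Z x} := fun x =>
      if h : Z x then Sum.inl (Quotient.mk _ h.choose) else Sum.inr ⟨x, h⟩
    have k1 : ∀ t i, k (emb t i) = Sum.inl (Quotient.mk _ t) := by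
      intro t i
      have hz : Z (emb t i) := ⟨t, i, rfl⟩
      simp only [k, dif_pos hz]
      obtain ⟨i', hi'⟩ := hz.choose_spec
      rw [← (hinj _ _ _ _ hi').1]
    have hsurj : Function.Surjective k := by
      rintro (q | ⟨x, hx⟩)
      · obtain ⟨t, rfl⟩ := Quotient.exists_rep q
        exact ⟨_, k1 t 0⟩
      · exact ⟨x, dif_neg hx⟩
    have e : nq (Setoid.ker k) = nq (sc σ ⊔ sc τ) + Nat.card {x // ¬ Z x} := by
      unfold nq
      rw [← Nat.card_sum]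
      exact Nat.card_congr (Setoid.quotientKerEquivOfSurjective k hsurj)
    rw [← e]
    have sσ : ∀ t, Quotient.mk (sc σ ⊔ sc τ) t = Quotient.mk (sc σ ⊔ sc τ) (σ t) :=
      fun t => Quotient.sound ((le_sup_left : sc σ ≤ _) (sc_apply σ t))
    have sτ : ∀ t, Quotient.mk (sc σ ⊔ sc τ) t = Quotient.mk (sc σ ⊔ sc τ) (τ t) :=
      fun t => Quotient.sound ((le_sup_right : sc τ ≤ _) (sc_apply τ t))
    refine nq_anti (sup_le (sc_le_iff.2 fun x => ?_) (sc_le_iff.2 fun x => ?_))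
    · show k x = k (f x)
      by_cases hx : Z x
      · obtain ⟨t, i, rfl⟩ := hx
        rw [fe, k1, k1]
      · rw [f2 x hx]
    · show k x = k (g x)
      by_cases hx : Z x
      · obtain ⟨t, i, rfl⟩ := hx
        rcases fin3 i with rfl | rfl | rfl
        · rw [g0, k1, k1, sσ (σ⁻¹ t)]
          simp
        · rw [g1', k1, k1, sτ]
        · rw [g2', k1, k1, sσ]
      · rw [g2 x hx]
  unfold Planar at *
  omega

end Vale.Agent.P201
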