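import Vale.Agent.P201.Planar

/-
Planar matchings coming from free reduction, splitting a long cycle into blocks, folding, and
passing from triangles to the dual map.
-/

namespace Vale.Agent.P201

open Equiv Equiv.Perm Classical

/-- Formal inverse of a letter. -/
def linv {X : Type} (a : X × Bool) : X × Bool := (a.1, !a.2)

theorem linv_linv {X : Type} (a : X × Bool) : linv (linv a) = a := by simp [linv]

theorem linv_ne {X : Type} (a : X × Bool) : linv a ≠ a := by
  intro h
  have := congrArg Prod.snd h
  simp [linv] at this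

/-- Positions follow the labels along a list. -/
def Tr {Ω G : Type} [Group G] (pos e : Ω → G) : G → List Ω → Prop
  | _, [] => True
  | γ, x :: l => pos x = γ ∧ Tr pos e (γ * e x) l

section Tr
variable {Ω G : Type} [Group G] {pos e : Ω → G}

theorem tr_append {γ : G} {l l' : List Ω} :
    Tr pos e γ (l ++ l') ↔ Tr pos e γ l ∧ Tr pos e (γ * (l.map e).prod) l' := by
  induction l generalizing γ with
  | nil => simp [Tr]
  | cons x l ih => simp [Tr, ih, and_assoc, mul_assoc]

theorem exists_tr (e : Ω → G) (l : List Ω) (hl : l.Nodup) (γ : G) : ∃ pos, Tr pos e γ l := by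
  induction l generalizing γ with
  | nil => exact ⟨fun _ => 1, trivial⟩
  | cons x l ih =>
    obtain ⟨hx, hl'⟩ := List.nodup_cons.1 hl
    obtain ⟨pos, hp⟩ := ih hl' (γ * e x)
    refine ⟨Function.update pos x γ, by simp, ?_⟩
    generalize γ * e x = δ at hp
    clear ih hl hl'
    induction l generalizing δ with
    | nil => trivial
    | cons y l ih =>
      have : y ≠ x := fun k => hx (by simp [k])
      exact ⟨by rw [Function.update_of_ne this, hp.1],
        ih (fun k => hx (List.mem_cons_of_mem _ k)) _ hp.2⟩

theorem tr_flatMap {I : Type} (blk : I → List Ω) (hb : ∀ i, ((blk i).map e).prod = 1) {γ : G}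
    (L : List I) (h : Tr pos e γ (L.flatMap blk)) : ∀ i ∈ L, Tr pos e γ (blk i) := by
  induction L with
  | nil => simp
  | cons j L ih =>
    rw [List.flatMap_cons, tr_append, hb, mul_one] at h
    intro i hi
    rcases List.mem_cons.1 hi with rfl | hi
    · exact h.1
    · exact ih h.2 i hi

theorem prod_stick {I : Type} (s s' : I → Ω) (hs : ∀ j, e (s' j) = (e (s j))⁻¹) (mid : List Ω)
    (hm : (mid.map e).prod = 1) (L : List I) :
    ((L.map s ++ (mid ++ (L.map s').reverse)).map e).prod = 1 := by
  induction L with
  | nil => simpa using hm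
  | cons j L ih =>
    have : (j :: L).map s ++ (mid ++ ((j :: L).map s').reverse) =
        s j :: ((L.map s ++ (mid ++ (L.map s').reverse)) ++ [s' j]) := by simp
    rw [this, List.map_cons, List.prod_cons, List.map_append, List.prod_append, ih]
    simp [hs]

theorem tr_stick {I : Type} (s s' : I → Ω) (hs : ∀ j, e (s' j) = (e (s j))⁻¹) (mid : List Ω)
    (hm : (mid.map e).prod = 1) (L : List I) {γ : G}
    (h : Tr pos e γ (L.map s ++ (mid ++ (L.map s').reverse))) :
    ∀ j ∈ L, pos (s' j) = pos (s j) * e (s j) := by
  induction L generalizing γ with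
  | nil => simp
  | cons j L ih =>
    have : (j :: L).map s ++ (mid ++ ((j :: L).map s').reverse) =
        s j :: ((L.map s ++ (mid ++ (L.map s').reverse)) ++ [s' j]) := by simp
    rw [this] at h
    obtain ⟨h1, h2⟩ := h
    rw [tr_append, prod_stick s s' hs mid hm, mul_one] at h2
    intro i hi
    rcases List.mem_cons.1 hi with rfl | hi
    · rw [h2.2.1, h1]
    · exact ih h2.1 i hi

end Tr

section Match
variable {Ω X G : Type} [Finite Ω] [Group G]

omit [Finite Ω] in
theorem chain_congr {f f' : Perm Ω} {l : List Ω} (h : l.IsChain fun x y => f x = y)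
    (hf : ∀ x ∈ l.dropLast, f' x = f x) : l.IsChain fun x y => f' x = y := by
  induction l with
  | nil => exact List.isChain_nil
  | cons a l ih =>
    cases l with
    | nil => exact List.isChain_singleton _
    | cons b l =>
      rw [List.isChain_cons_cons] at h ⊢
      refine ⟨by rw [hf a (by simp), h.1], ih h.2 fun x hx => hf x ?_⟩
      rw [List.dropLast_cons_cons]
      exact List.mem_cons_of_mem _ hx

theorem exists_match (lab : Ω → X × Bool) (pos : Ω → G) (ev : X × Bool → G)
    (hev : ∀ a, ev (linv a) = (ev a)⁻¹) {W : List (X × Bool)} (hW : FreeGroup.Red W []) :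
    ∀ (l : List Ω) (f : Perm Ω) (γ : G), l.map lab = W → l.Nodup →
      (l.IsChain fun x y => f x = y) → Tr pos (fun x => ev (lab x)) γ l →
      ∃ μ : Perm Ω, (∀ x, μ (μ x) = x) ∧ (∀ x, x ∉ l → μ x = x) ∧
        (∀ x ∈ l, μ x ∈ l ∧ lab (μ x) = linv (lab x) ∧ pos (μ x) = pos x * ev (lab x)) ∧
        Planar f μ := by
  induction hW using Relation.ReflTransGen.head_induction_on with
  | refl =>
    intro l f γ h _ _ _
    obtain rfl : l = [] := by simpa using h
    exact ⟨1, fun _ => rfl, fun _ _ => rfl, by simp, planar_one f⟩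
  | head hstep _ ih =>
    intro l f γ h hnd hch htr
    obtain @⟨L1, L2, x, b⟩ := hstep
    obtain ⟨A, l2, rfl, hA, h2⟩ := List.map_eq_append_iff.1 h
    obtain ⟨a, l3, rfl, ha, h3⟩ := List.map_eq_cons_iff.1 h2
    obtain ⟨a', B, rfl, ha', hB⟩ := List.map_eq_cons_iff.1 h3
    have hlab : lab a' = linv (lab a) := by rw [ha, ha']; rfl
    have hnd' : (a :: a' :: (A ++ B)).Nodup := by
      refine (List.Perm.nodup_iff ?_).1 hnd
      exact List.perm_middle.trans (List.Perm.cons _ List.perm_middle)
    simp only [List.nodup_cons, List.mem_cons, not_or] at hnd'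
    obtain ⟨⟨haa, haAB⟩, haAB', hndAB⟩ := hnd'
    obtain ⟨c1, c2, c3⟩ := List.isChain_append.1 hch
    have hfa : f a = a' := (List.isChain_cons_cons.1 c2).1
    have c4 := (List.isChain_cons_cons.1 c2).2
    have hpa : f⁻¹ a ≠ a := by
      intro k
      apply haa
      rw [← hfa]
      conv_rhs => rw [← k]
      simp
    have hch' : (A ++ B).IsChain fun x y => (f * swap (f⁻¹ a) a') x = y := by
      refine List.isChain_append.2 ⟨chain_congr c1 ?_, chain_congr c4.tail ?_, ?_⟩
      · intro y hy
        have hyA : y ∈ A := List.dropLast_subset _ hy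
        rw [Perm.mul_apply, swap_apply_of_ne_of_ne]
        · rintro rfl
          obtain ⟨i, hi, e⟩ := List.getElem_of_mem hy
          rw [List.length_dropLast] at hi
          have := List.isChain_iff_getElem.1 c1 i (by omega)
          rw [List.getElem_dropLast] at e
          rw [e] at this
          rw [show f (f⁻¹ a) = a by simp] at this
          exact haAB (List.mem_append_left _ (this ▸ List.getElem_mem _))
        · rintro rfl
          exact haAB' (List.mem_append_left _ hyA)
      · intro y hy
        have hyB : y ∈ B := List.dropLast_subset _ hy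
        rw [Perm.mul_apply, swap_apply_of_ne_of_ne]
        · rintro rfl
          obtain ⟨i, hi, e⟩ := List.getElem_of_mem hy
          rw [List.length_dropLast] at hi
          have := List.isChain_iff_getElem.1 c4.tail i (by simp at hi ⊢; omega)
          rw [List.getElem_dropLast] at e
          simp only [List.tail_cons] at this e
          rw [e] at this
          rw [show f (f⁻¹ a) = a by simp] at this
          exact haAB (List.mem_append_right _ (this ▸ List.getElem_mem _))
        · rintro rfl
          exact haAB' (List.mem_append_right _ hyB)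
      · intro y hy z hz
        have e1 : f y = a := c3 y hy a (by simp)
        have e2 : f a' = z := (List.isChain_cons.1 c4).1 z hz
        have : y = f⁻¹ a := by rw [← e1]; simp
        rw [this, Perm.mul_apply, swap_apply_left, e2]
    obtain ⟨t1, t2, t3, t4⟩ := tr_append.1 htr
    beta_reduce at t3 t4
    have htr' : Tr pos (fun x => ev (lab x)) γ (A ++ B) := by
      refine tr_append.2 ⟨t1, ?_⟩
      rwa [hlab, hev, mul_inv_cancel_right] at t4
    obtain ⟨μ, m1, m2, m3, m4⟩ := ih (A ++ B) _ γ (by rw [List.map_append, hA, hB]) hndAB hch' htr'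
    have μa := m2 a haAB
    have μa' := m2 a' haAB'
    have f1 : (f * swap (f⁻¹ a) a') a = a' := by
      rw [Perm.mul_apply, swap_apply_of_ne_of_ne hpa.symm haa, hfa]
    have f2 : (f * swap (f⁻¹ a) a') a' = a := by
      rw [Perm.mul_apply, swap_apply_right]
      simp
    have g1 : (μ * swap a a') a = a' := by rw [Perm.mul_apply, swap_apply_left, μa']
    have g2 : (μ * swap a a') a' = a := by rw [Perm.mul_apply, swap_apply_right, μa]
    have g3 : ∀ y, y ≠ a → y ≠ a' → (μ * swap a a') y = μ y := fun y h1 h2 => by
      rw [Perm.mul_apply, swap_apply_of_ne_of_ne h1 h2]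
    have mem : ∀ y, y ∈ A ++ a :: a' :: B ↔ y = a ∨ y = a' ∨ y ∈ A ++ B := by
      intro y
      simp only [List.mem_append, List.mem_cons]
      tauto
    refine ⟨μ * swap a a', ?_, ?_, ?_, ?_⟩
    · intro y
      by_cases k1 : y = a
      · rw [k1, g1, g2]
      by_cases k2 : y = a'
      · rw [k2, g2, g1]
      rw [g3 y k1 k2, g3, m1]
      · intro k
        apply k1
        rw [← m1 y, k, μa]
      · intro k
        apply k2
        rw [← m1 y, k, μa']
    · intro y hy
      rw [mem, not_or, not_or] at hy
      rw [g3 y hy.1 hy.2.1, m2 y hy.2.2]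
    · intro y hy
      rcases (mem y).1 hy with rfl | rfl | hy
      · rw [g1]
        exact ⟨by simp, hlab, by rw [t3, t2]⟩
      · rw [g2]
        exact ⟨by simp, by rw [hlab, linv_linv], by rw [t3, t2, hlab, hev, mul_inv_cancel_right]⟩
      · rw [g3 y (fun k => haAB (k ▸ hy)) (fun k => haAB' (k ▸ hy))]
        exact ⟨(mem _).2 (Or.inr (Or.inr (m3 y hy).1)), (m3 y hy).2⟩
    · have P1 : Planar (f * swap (f⁻¹ a) a') (μ * swap a a') := by
        refine m4.of_prod ?_
        have := sc_apply (f * swap (f⁻¹ a) a' * μ) a
        rwa [Perm.mul_apply, μa, f1] at this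
      by_cases hp : f⁻¹ a = a'
      · rw [hp, swap_self] at P1
        exact P1
      · have P2 := P1.symm.join (a := a') (b := f⁻¹ a)
          (not_comp_of_inv (p := fun y => y = a ∨ y = a') ?_ ?_ (Or.inr rfl) (not_or.2 ⟨hpa, hp⟩))
        · rw [swap_comm a' (f⁻¹ a), mul_assoc, swap_mul_self, mul_one] at P2
          exact P2.symm
        · rintro y (rfl | rfl)
          · exact Or.inr g1
          · exact Or.inl g2
        · rintro y (rfl | rfl)
          · exact Or.inr f1
          · exact Or.inl f2

/-- Lists built by inserting cycles of `φ`. -/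
inductive Shape (φ : Perm Ω) : List Ω → Prop
  | nil : Shape φ []
  | ins (A B c : List Ω) (x y : Ω) : Shape φ (A ++ B) → c.head? = some x → c.getLast? = some y →
      (c.IsChain fun u v => φ u = v) → φ y = x → Shape φ (A ++ (c ++ B))

omit [Finite Ω] in
theorem Shape.append {φ : Perm Ω} {l l' : List Ω} (h : Shape φ l) (h' : Shape φ l') :
    Shape φ (l ++ l') := by
  induction h with
  | nil => exact h'
  | ins A B c x y _ h1 h2 h3 h4 ih =>
    have := Shape.ins A (B ++ l') c x y (by rwa [List.append_assoc] at ih) h1 h2 h3 h4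
    simpa using this

omit [Finite Ω] in
theorem Shape.flatMap {φ : Perm Ω} {I : Type} (blk : I → List Ω) (hb : ∀ i, Shape φ (blk i))
    (L : List I) : Shape φ (L.flatMap blk) := by
  induction L with
  | nil => exact Shape.nil
  | cons j L ih => exact (hb j).append ih

omit [Finite Ω] in
theorem Shape.stick {φ : Perm Ω} {I : Type} (s s' : I → Ω) (h1 : ∀ j, φ (s j) = s' j)
    (h2 : ∀ j, φ (s' j) = s j) (L : List I) : ∀ A B, Shape φ (A ++ B) →
      Shape φ ((A ++ L.map s) ++ ((L.map s').reverse ++ B)) := by
  induction L with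
  | nil => simp
  | cons j L ih =>
    intro A B h
    have := ih (A ++ [s j]) (s' j :: B) (by
      have := Shape.ins A B [s j, s' j] (s j) (s' j) h rfl rfl
        (List.isChain_cons_cons.2 ⟨h1 j, List.isChain_singleton _⟩) (h2 j)
      simpa using this)
    simpa using this

omit [Finite Ω] in
theorem chain_sc {f : Perm Ω} {x : Ω} {l : List Ω} (h : (x :: l).IsChain fun u v => f u = v) :
    ∀ y ∈ l, sc f x y := by
  induction l generalizing x with
  | nil => simp
  | cons a l ih =>
    rw [List.isChain_cons_cons] at h
    have k : sc f x a := h.1 ▸ sc_apply f x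
    intro y hy
    rcases List.mem_cons.1 hy with rfl | hy
    · exact k
    · exact (sc f).trans' k (ih h.2 y hy)

theorem Shape.exists_chain {φ : Perm Ω} {l : List Ω} (h : Shape φ l) (z : Ω) :
    (z :: l).Nodup → ∃ f : Perm Ω, ((z :: l).IsChain fun u v => f u = v) ∧
      (∀ u, u ∉ z :: l → f u = φ u) ∧ ∀ μ, Planar μ f → Planar μ φ := by
  induction h with
  | nil => exact fun _ => ⟨φ, List.isChain_singleton _, fun _ _ => rfl, fun _ h => h⟩
  | ins A B c x y _ h1 h2 h3 h4 ih =>
    intro hnd
    obtain ⟨A', p, hA⟩ : ∃ A' p, z :: A = A' ++ [p] :=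
      ⟨_, _, (List.dropLast_append_getLast (l := z :: A) (by simp)).symm⟩
    obtain ⟨c', rfl⟩ := List.getLast?_eq_some_iff.1 h2
    have e1 : z :: (A ++ B) = A' ++ p :: B := by rw [← List.cons_append, hA]; simp
    have e2 : z :: (A ++ (c' ++ [y] ++ B)) = A' ++ p :: (c' ++ y :: B) := by
      rw [← List.cons_append, hA]; simp
    rw [e1] at ih
    rw [e2] at hnd ⊢
    have hnd2 : (p :: y :: (c' ++ (A' ++ B))).Nodup := by
      refine (List.Perm.nodup_iff ?_).1 hnd
      refine List.perm_middle.trans (List.Perm.cons _ ?_)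
      rw [← List.append_assoc]
      refine List.perm_middle.trans (List.Perm.cons _ ?_)
      rw [← List.append_assoc]
      exact List.Perm.append_right _ List.perm_append_comm
    simp only [List.nodup_cons, List.mem_cons, not_or, List.mem_append, List.nodup_append] at hnd2
    obtain ⟨⟨hpy, hpc, hpA, hpB⟩, ⟨hyc, hyA, hyB⟩, hc, ⟨nA, nB, nAB⟩, hcAB⟩ := hnd2
    obtain ⟨f, f1, f2, f3⟩ := ih (by
      refine (List.Perm.nodup_iff List.perm_middle).2 ?_
      simp only [List.nodup_cons, List.mem_append, not_or, List.nodup_append]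
      exact ⟨⟨hpA, hpB⟩, nA, nB, nAB⟩)
    have fc : ∀ u ∈ c' ++ [y], f u = φ u := by
      intro u hu
      refine f2 u ?_
      simp only [List.mem_append, List.mem_cons, List.not_mem_nil, or_false, not_or] at hu ⊢
      rcases hu with hu | rfl
      · exact ⟨fun k => hcAB u hu u (Or.inl k) rfl, fun k => hpc (k ▸ hu),
          fun k => hcAB u hu u (Or.inr k) rfl⟩
      · exact ⟨hyA, fun k => hpy k.symm, hyB⟩
    have g3 : ∀ u, u ≠ p → u ≠ y → (f * swap p y) u = f u := fun u h1 h2 => by
      rw [Perm.mul_apply, swap_apply_of_ne_of_ne h1 h2]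
    obtain ⟨a1, a2⟩ := List.isChain_split.1 f1
    have ch2 : (p :: (c' ++ [y])).IsChain fun u v => (f * swap p y) u = v := by
      refine List.isChain_cons.2 ⟨?_, chain_congr h3 ?_⟩
      · intro v hv
        rw [h1] at hv
        obtain rfl : x = v := by simpa using hv
        rw [Perm.mul_apply, swap_apply_left, fc y (by simp), h4]
      · intro u hu
        rw [List.dropLast_concat] at hu
        rw [g3 u (fun k => hpc (k ▸ hu)) (fun k => hyc (k ▸ hu)), fc u (by simp [hu])]
    refine ⟨f * swap p y, ?_, ?_, ?_⟩
    · refine List.isChain_split.2 ⟨chain_congr a1 ?_, ?_⟩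
      · intro u hu
        rw [List.dropLast_concat] at hu
        exact g3 u (fun k => hpA (k ▸ hu)) (fun k => hyA (k ▸ hu))
      · rw [← List.cons_append]
        refine List.isChain_split.2 ⟨ch2, List.isChain_cons.2 ⟨?_, chain_congr a2.tail ?_⟩⟩
        · intro v hv
          rw [Perm.mul_apply, swap_apply_right]
          exact (List.isChain_cons.1 a2).1 v hv
        · intro u hu
          have hu' : u ∈ B := List.dropLast_subset _ hu
          exact g3 u (fun k => hpB (k ▸ hu')) (fun k => hyB (k ▸ hu'))
    · intro u hu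
      simp only [List.mem_append, List.mem_cons, not_or] at hu
      rw [g3 u hu.2.1 hu.2.2.2.1, f2 u (by simp [hu.1, hu.2.1, hu.2.2.2.2])]
    · intro μ hμ
      have := hμ.split (chain_sc ch2 y (by simp))
      rw [mul_assoc, swap_mul_self, mul_one] at this
      exact f3 μ this

end Match

end Vale.Agent.P201
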