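import Mathlib

/-
Pairs of permutations of a finite set (hypermaps) and the Euler inequality of planar maps.
-/

namespace Vale.Agent.P201

open Equiv Equiv.Perm Classical

/-- The number of classes of an equivalence relation. -/
noncomputable def nq {α : Type} (r : Setoid α) : ℕ := Nat.card (Quotient r)

/-- The cycles of a permutation. -/
def sc {α : Type} (f : Perm α) : Setoid α := SameCycle.setoid f

/-- The Euler inequality. -/
def Planar {α : Type} (f g : Perm α) : Prop :=
  Nat.card α + 2 * nq (sc f ⊔ sc g) ≤ nq (sc f) + nq (sc g) + nq (sc (f * g))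

/-- Joining the classes of two points. -/
def pj {α : Type} (r : Setoid α) (a b : α) : Setoid α where
  r x y := r x y ∨ (r x a ∧ r b y) ∨ (r x b ∧ r a y)
  iseqv := by
    have S : ∀ {x y}, r x y → r y x := fun h => r.symm' h
    have T : ∀ {x y z}, r x y → r y z → r x z := fun h h' => r.trans' h h'
    refine ⟨fun x => Or.inl (r.refl' x), ?_, ?_⟩
    · rintro x y (h | ⟨h1, h2⟩ | ⟨h1, h2⟩)
      · exact Or.inl (S h)
      · exact Or.inr (Or.inr ⟨S h2, S h1⟩)
      · exact Or.inr (Or.inl ⟨S h2, S h1⟩)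
    · rintro x y z (h | ⟨h1, h2⟩ | ⟨h1, h2⟩) (k | ⟨k1, k2⟩ | ⟨k1, k2⟩)
      · exact Or.inl (T h k)
      · exact Or.inr (Or.inl ⟨T h k1, k2⟩)
      · exact Or.inr (Or.inr ⟨T h k1, k2⟩)
      · exact Or.inr (Or.inl ⟨h1, T h2 k⟩)
      · exact Or.inr (Or.inl ⟨h1, k2⟩)
      · exact Or.inl (T h1 k2)
      · exact Or.inr (Or.inr ⟨h1, T h2 k⟩)
      · exact Or.inl (T h1 k2)
      · exact Or.inr (Or.inr ⟨h1, k2⟩)

section
variable {α β γ : Type}

theorem sc_iff {f : Perm α} {x y : α} : sc f x y ↔ f.SameCycle x y := Iff.rfl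

theorem pj_iff {r : Setoid α} {a b x y : α} :
    pj r a b x y ↔ r x y ∨ (r x a ∧ r b y) ∨ (r x b ∧ r a y) := Iff.rfl

theorem le_pj (r : Setoid α) (a b : α) : r ≤ pj r a b := fun _ _ h => Or.inl h

theorem pj_pair (r : Setoid α) (a b : α) : pj r a b a b :=
  Or.inr (Or.inl ⟨r.refl' a, r.refl' b⟩)

theorem pj_le {r s : Setoid α} {a b : α} (h : r ≤ s) (hab : s a b) : pj r a b ≤ s := by
  rintro x y (k | ⟨k1, k2⟩ | ⟨k1, k2⟩)
  · exact h k
  · exact s.trans' (h k1) (s.trans' hab (h k2))
  · exact s.trans' (h k1) (s.trans' (s.symm' hab) (h k2))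

theorem nq_le_of_map [Finite β] (r : Setoid α) (s : Setoid β) (k : β → α)
    (hk : ∀ x y, s x y → r (k x) (k y)) (hs : ∀ a, ∃ b, r (k b) a) : nq r ≤ nq s := by
  refine Nat.card_le_card_of_surjective (Quotient.map' (s₁ := s) (s₂ := r) k hk) ?_
  intro q
  obtain ⟨a, rfl⟩ := Quotient.exists_rep q
  obtain ⟨b, hb⟩ := hs a
  exact ⟨Quotient.mk s b, Quotient.sound hb⟩

theorem nq_le_add [Finite β] [Finite γ] (r : Setoid α) (s : Setoid β) (t : Setoid γ) (k : β → α)
    (k' : γ → α) (hk : ∀ x y, s x y → r (k x) (k y)) (hk' : ∀ x y, t x y → r (k' x) (k' y))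
    (hs : ∀ a, (∃ b, r (k b) a) ∨ ∃ c, r (k' c) a) : nq r ≤ nq s + nq t := by
  unfold nq
  rw [← Nat.card_sum]
  refine Nat.card_le_card_of_surjective (Sum.elim (Quotient.map' (s₁ := s) (s₂ := r) k hk)
    (Quotient.map' (s₁ := t) (s₂ := r) k' hk')) ?_
  intro q
  obtain ⟨a, rfl⟩ := Quotient.exists_rep q
  rcases hs a with ⟨b, hb⟩ | ⟨c, hc⟩
  · exact ⟨Sum.inl (Quotient.mk s b), Quotient.sound hb⟩
  · exact ⟨Sum.inr (Quotient.mk t c), Quotient.sound hc⟩

theorem nq_bot : nq (⊥ : Setoid α) = Nat.card α := by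
  unfold nq
  refine (Nat.card_congr (Equiv.ofBijective (Quotient.mk (⊥ : Setoid α)) ⟨?_, ?_⟩)).symm
  · intro x y h
    exact Quotient.exact h
  · exact Quotient.mk_surjective

variable [Finite α]

theorem nq_anti {r s : Setoid α} (h : r ≤ s) : nq s ≤ nq r :=
  nq_le_of_map s r id (fun _ _ hh => h hh) (fun a => ⟨a, s.refl' a⟩)

theorem nq_lt {r s : Setoid α} (h : r ≤ s) {a b : α} (hs : s a b) (hr : ¬ r a b) :
    nq s < nq r := by
  unfold nq
  have := Fintype.ofFinite (Quotient r)
  have := Fintype.ofFinite (Quotient s)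
  rw [Nat.card_eq_fintype_card, Nat.card_eq_fintype_card]
  refine Fintype.card_lt_of_surjective_not_injective
    (Quotient.map' (s₁ := r) (s₂ := s) id (fun _ _ hh => h hh)) ?_ ?_
  · intro q
    obtain ⟨a, rfl⟩ := Quotient.exists_rep q
    exact ⟨Quotient.mk r a, rfl⟩
  · intro hinj
    apply hr
    have : Quotient.mk r a = Quotient.mk r b := hinj (Quotient.sound hs)
    exact Quotient.exact this

theorem nq_le_pj (r : Setoid α) (a b : α) : nq r ≤ nq (pj r a b) + 1 := by
  have h1 : nq (⊥ : Setoid Unit) = 1 := by rw [nq_bot]; simp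
  rw [← h1]
  refine nq_le_add r (pj r a b) ⊥ (fun x => if r x b then a else if r x a then a else x)
    (fun _ => b) ?_ (fun _ _ _ => r.refl' _) ?_
  · intro x y hxy
    have S : ∀ {x y}, r x y → r y x := fun h => r.symm' h
    have T : ∀ {x y z}, r x y → r y z → r x z := fun h h' => r.trans' h h'
    rcases hxy with h | ⟨h1, h2⟩ | ⟨h1, h2⟩
    · have e1 : r x b ↔ r y b := ⟨fun k => T (S h) k, fun k => T h k⟩
      have e2 : r x a ↔ r y a := ⟨fun k => T (S h) k, fun k => T h k⟩
      by_cases c1 : r x b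
      · simp only [c1, e1.1 c1, if_true]
        exact r.refl' _
      · by_cases c2 : r x a
        · simp only [c1, c2, mt e1.2 c1, e2.1 c2, if_true, if_false]
          exact r.refl' _
        · simp only [c1, c2, mt e1.2 c1, mt e2.2 c2, if_false]
          exact h
    · simp only [h1, S h2, if_true, ite_self]
      exact r.refl' _
    · simp only [h1, S h2, if_true, ite_self]
      exact r.refl' _
  · intro x
    by_cases c1 : r x b
    · exact Or.inr ⟨(), r.symm' c1⟩
    · refine Or.inl ⟨x, ?_⟩
      by_cases c2 : r x a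
      · simp only [c1, c2, if_true, if_false]
        exact r.symm' c2
      · simp only [c1, c2, if_false]
        exact r.refl' _

theorem nq_le_succ {r s : Setoid α} {a b : α} (h : s ≤ pj r a b) : nq r ≤ nq s + 1 :=
  (nq_le_pj r a b).trans (Nat.add_le_add_right (nq_anti h) 1)

theorem sc_le_iff {f : Perm α} {r : Setoid α} : sc f ≤ r ↔ ∀ x, r x (f x) := by
  constructor
  · intro h x
    exact h (show f.SameCycle x (f x) from ⟨1, by simp⟩)
  · intro h x y hxy
    obtain ⟨n, rfl⟩ := SameCycle.exists_nat_pow_eq hxy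
    clear hxy
    induction n with
    | zero => exact r.refl' _
    | succ n ih =>
      rw [pow_succ', Perm.mul_apply]
      exact r.trans' ih (h _)

omit [Finite α] in
theorem sc_apply (f : Perm α) (x : α) : sc f x (f x) := show f.SameCycle x (f x) from ⟨1, by simp⟩

/-- Invariant sets are unions of cycles. -/
theorem sc_inv {f : Perm α} {p : α → Prop} (h : ∀ x, p x → p (f x)) {x y : α}
    (hxy : sc f x y) (hx : p x) : p y := by
  obtain ⟨n, rfl⟩ := SameCycle.exists_nat_pow_eq hxy
  clear hxy
  induction n with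
  | zero => exact hx
  | succ n ih =>
    rw [pow_succ', Perm.mul_apply]
    exact h _ ih

theorem sc_swap_iff {f : Perm α} {a b : α} (hab : a ≠ b) :
    sc (f * swap a b) a b ↔ ¬ sc f a b := by
  have hex : ∃ k, 0 < k ∧ ((f ^ k) b = a ∨ (f ^ k) b = b) :=
    ⟨orderOf f, orderOf_pos f, Or.inr (by rw [pow_orderOf_eq_one]; rfl)⟩
  obtain ⟨hk0, hk⟩ := Nat.find_spec hex
  set k := Nat.find hex with hkdef
  have hmin : ∀ j, 0 < j → j < k → (f ^ j) b ≠ a ∧ (f ^ j) b ≠ b := by
    intro j h0 hj
    have := Nat.find_min hex hj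
    push Not at this
    exact this h0
  have hA : ∀ j, j < k → ((f * swap a b) ^ (j + 1)) a = (f ^ (j + 1)) b := by
    intro j
    induction j with
    | zero => intro _; simp
    | succ j ih =>
      intro hj
      have := hmin (j + 1) (by omega) hj
      rw [pow_succ', Perm.mul_apply, ih (by omega), pow_succ' f (j + 1), Perm.mul_apply,
        Perm.mul_apply, swap_apply_of_ne_of_ne this.1 this.2]
  have hAk : ((f * swap a b) ^ k) a = (f ^ k) b := by
    have := hA (k - 1) (by omega)
    rwa [Nat.sub_add_cancel hk0] at this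
  rcases hk with hk | hk
  · have h1 : sc f a b := (sc f).symm' ⟨k, by simpa using hk⟩
    refine ⟨fun h => ?_, fun h => absurd h1 h⟩
    exfalso
    have := sc_inv (p := fun x => ∃ j, j < k ∧ x = ((f * swap a b) ^ j) a) ?_ h ⟨0, hk0, rfl⟩
    · obtain ⟨j, hj, e⟩ := this
      rcases j with _ | j
      · exact hab e.symm
      · rw [hA j (by omega)] at e
        exact (hmin _ (by omega) hj).2 e.symm
    · rintro x ⟨j, hj, rfl⟩
      by_cases hj' : j + 1 < k
      · exact ⟨j + 1, hj', by rw [pow_succ']; rfl⟩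
      · refine ⟨0, hk0, ?_⟩
        have : j + 1 = k := by omega
        rw [← Perm.mul_apply, ← pow_succ', this, hAk, hk]
        rfl
  · have h1 : sc (f * swap a b) a b := ⟨k, by rw [zpow_natCast, hAk, hk]⟩
    refine ⟨fun _ h => ?_, fun _ => h1⟩
    have := sc_inv (p := fun x => ∃ j, j < k ∧ x = (f ^ j) b) ?_ ((sc f).symm' h) ⟨0, hk0, rfl⟩
    · obtain ⟨j, hj, e⟩ := this
      rcases j with _ | j
      · exact hab e
      · exact (hmin _ (by omega) hj).1 e.symm
    · rintro x ⟨j, hj, rfl⟩
      by_cases hj' : j + 1 < k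
      · exact ⟨j + 1, hj', by rw [pow_succ']; rfl⟩
      · refine ⟨0, hk0, ?_⟩
        have : j + 1 = k := by omega
        rw [← Perm.mul_apply, ← pow_succ', this, hk]
        rfl

theorem sc_swap_le (f : Perm α) (a b : α) : sc (f * swap a b) ≤ pj (sc f) a b := by
  rw [sc_le_iff]
  intro x
  rw [Perm.mul_apply]
  by_cases h1 : x = a
  · subst h1
    rw [swap_apply_left]
    exact Or.inr (Or.inl ⟨(sc f).refl' _, sc_apply _ _⟩)
  · by_cases h2 : x = b
    · subst h2
      rw [swap_apply_right]
      exact Or.inr (Or.inr ⟨(sc f).refl' _, sc_apply _ _⟩)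
    · rw [swap_apply_of_ne_of_ne h1 h2]
      exact Or.inl (sc_apply _ _)

theorem sc_le_swap (f : Perm α) (a b : α) : sc f ≤ pj (sc (f * swap a b)) a b := by
  have := sc_swap_le (f * swap a b) a b
  rwa [mul_assoc, swap_mul_self, mul_one] at this

theorem sc_merge_le {f : Perm α} {a b : α} (h : ¬ sc f a b) : sc f ≤ sc (f * swap a b) := by
  have hab : a ≠ b := fun e => h (e ▸ (sc f).refl' _)
  exact (sc_le_swap f a b).trans (pj_le le_rfl ((sc_swap_iff hab).2 h))

theorem sc_merge_pair {f : Perm α} {a b : α} (h : ¬ sc f a b) : sc (f * swap a b) a b :=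
  (sc_swap_iff (fun e : a = b => h (e ▸ (sc f).refl' _))).2 h

theorem nq_merge {f : Perm α} {a b : α} (h : ¬ sc f a b) :
    nq (sc (f * swap a b)) + 1 = nq (sc f) := by
  have h1 := nq_lt (sc_merge_le h) (sc_merge_pair h) h
  have h2 := nq_le_succ (sc_swap_le f a b)
  omega

theorem sc_split_not {f : Perm α} {a b : α} (hab : a ≠ b) (h : sc f a b) :
    ¬ sc (f * swap a b) a b := fun h' => (sc_swap_iff hab).1 h' h

theorem sc_split_le {f : Perm α} {a b : α} (h : sc f a b) : sc (f * swap a b) ≤ sc f :=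
  (sc_swap_le f a b).trans (pj_le le_rfl h)

theorem nq_split {f : Perm α} {a b : α} (hab : a ≠ b) (h : sc f a b) :
    nq (sc (f * swap a b)) = nq (sc f) + 1 := by
  have := nq_merge (sc_split_not hab h)
  rw [mul_assoc, swap_mul_self, mul_one] at this
  omega

theorem sc_mul_le (f g : Perm α) : sc (f * g) ≤ sc f ⊔ sc g := by
  rw [sc_le_iff]
  intro x
  exact (sc f ⊔ sc g).trans' ((le_sup_right : sc g ≤ sc f ⊔ sc g) (sc_apply g x))
    ((le_sup_left : sc f ≤ sc f ⊔ sc g) (sc_apply f (g x)))

theorem nq_mul_comm (f g : Perm α) : nq (sc (f * g)) = nq (sc (g * f)) := by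
  have key : ∀ f g : Perm α, nq (sc (g * f)) ≤ nq (sc (f * g)) := by
    intro f g
    refine nq_le_of_map _ _ g ?_ (fun a => ⟨g⁻¹ a, by simp⟩)
    intro x y hxy
    refine (sc_le_iff (r := Setoid.comap g (sc (g * f)))).2 ?_ hxy
    intro x
    exact sc_apply (g * f) (g x)
  exact le_antisymm (key g f) (key f g)

theorem Planar.symm {f g : Perm α} (h : Planar f g) : Planar g f := by
  unfold Planar at *
  rw [sup_comm, nq_mul_comm g f]
  omega

theorem sc_one : sc (1 : Perm α) = ⊥ :=
  le_antisymm (sc_le_iff.2 fun _ => rfl) bot_le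

theorem planar_one (f : Perm α) : Planar f 1 := by
  unfold Planar
  rw [sc_one, sup_bot_eq, mul_one, nq_bot]
  omega

/-- Splitting a cycle preserves planarity. -/
theorem Planar.split {f g : Perm α} (h : Planar f g) {a b : α} (hg : sc g a b) :
    Planar f (g * swap a b) := by
  by_cases hab : a = b
  · subst hab
    simpa [← Perm.one_def] using h
  unfold Planar at *
  rw [nq_split hab hg, ← mul_assoc]
  have hle : sc f ⊔ sc g ≤ pj (sc f ⊔ sc (g * swap a b)) a b := by
    refine sup_le (le_sup_left.trans (le_pj _ _ _)) ((sc_le_swap g a b).trans ?_)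
    exact pj_le (le_sup_right.trans (le_pj _ _ _)) (pj_pair _ _ _)
  by_cases hfg : sc (f * g) a b
  · rw [nq_split hab hfg]
    have := nq_le_succ hle
    omega
  · have h1 := nq_merge hfg
    have h2 : (sc f ⊔ sc (g * swap a b)) a b := by
      have := sc_merge_pair hfg
      rw [mul_assoc] at this
      exact sc_mul_le _ _ this
    have := nq_anti (hle.trans (pj_le le_rfl h2))
    omega

/-- Splitting a cycle of the product preserves planarity. -/
theorem Planar.of_prod {f g : Perm α} (h : Planar f g) {a b : α} (hfg : sc (f * g) a b) :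
    Planar f (g * swap a b) := by
  by_cases hg : sc g a b
  · exact h.split hg
  have hab : a ≠ b := fun e => hg (e ▸ (sc g).refl' _)
  unfold Planar at *
  rw [← mul_assoc, nq_split hab hfg]
  have h1 := nq_merge hg
  have h2 := nq_anti (sup_le_sup_left (sc_merge_le hg) (sc f))
  omega

/-- Joining two components preserves planarity. -/
theorem Planar.join {f g : Perm α} (h : Planar f g) {a b : α} (hc : ¬ (sc f ⊔ sc g) a b) :
    Planar f (g * swap a b) := by
  have hg : ¬ sc g a b := fun k => hc ((le_sup_right : sc g ≤ sc f ⊔ sc g) k)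
  have hfg : ¬ sc (f * g) a b := fun k => hc (sc_mul_le _ _ k)
  unfold Planar at *
  rw [← mul_assoc]
  have h1 := nq_merge hg
  have h2 := nq_merge hfg
  have h3 := nq_lt (sup_le_sup_left (sc_merge_le hg) (sc f))
    ((le_sup_right : sc (g * swap a b) ≤ sc f ⊔ sc (g * swap a b)) (sc_merge_pair hg)) hc
  omega

/-- A point fixed by both permutations is alone in its component. -/
theorem not_comp_of_inv {f g : Perm α} {p : α → Prop} (hf : ∀ x, p x → p (f x))
    (hg : ∀ x, p x → p (g x)) {a b : α} (ha : p a) (hb : ¬ p b) : ¬ (sc f ⊔ sc g) a b := by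
  intro h
  let r : Setoid α := Setoid.ker p
  have h1 : ∀ f : Perm α, (∀ x, p x → p (f x)) → sc f ≤ r := by
    intro f hf x y hxy
    exact propext ⟨sc_inv hf hxy, sc_inv hf ((sc f).symm' hxy)⟩
  have : p a = p b := (sup_le (h1 f hf) (h1 g hg) : sc f ⊔ sc g ≤ r) h
  exact hb (this ▸ ha)

/-- Contraction of an edge joining two different cycles. -/
theorem Planar.contract {f g : Perm α} (h : Planar f g) {a b : α} (hf : ¬ sc f a b)
    (h1 : g a = b) (h2 : g b = a) : Planar (f * swap a (f⁻¹ b)) (g * swap a b) := by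
  have hab : a ≠ b := fun e => hf (e ▸ (sc f).refl' _)
  have hg : sc g a b := h1 ▸ sc_apply g a
  have hcomm : swap a b * g = g * swap a b := by
    rw [mul_swap_eq_swap_mul, h1, h2, swap_comm]
  have P1 : Planar (f * swap a b) (g * swap a b) := by
    unfold Planar at *
    have e : f * swap a b * (g * swap a b) = f * g := by
      rw [← hcomm, mul_assoc, ← mul_assoc (swap a b), swap_mul_self, one_mul]
    rw [e, nq_split hab hg]
    have k1 := nq_merge hf
    have k2 : nq (sc (f * swap a b) ⊔ sc (g * swap a b)) ≤ nq (sc f ⊔ sc g) := by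
      refine nq_anti (sup_le ((sc_merge_le hf).trans le_sup_left) ((sc_le_swap g a b).trans ?_))
      exact pj_le le_sup_right
        ((le_sup_left : sc (f * swap a b) ≤ sc (f * swap a b) ⊔ _) (sc_merge_pair hf))
    omega
  by_cases hb : f⁻¹ b = b
  · rw [hb]
    exact P1
  have hba : f⁻¹ b ≠ a := by
    intro e
    apply hf
    have : b = f a := by rw [← e]; simp
    rw [this]
    exact sc_apply f a
  have P2 : Planar (g * swap a b) (f * swap a b * swap b (f⁻¹ b)) := by
    refine P1.symm.split ((sc _).symm' ?_)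
    have : (f * swap a b) (f⁻¹ b) = b := by
      rw [Perm.mul_apply, swap_apply_of_ne_of_ne hba hb]
      simp
    have k := sc_apply (f * swap a b) (f⁻¹ b)
    rwa [this] at k
  have P3 := P2.join (a := b) (b := a) (not_comp_of_inv (p := fun x => x = b) ?_ ?_ rfl hab)
  · have e : f * swap a b * swap b (f⁻¹ b) * swap b a = f * swap a (f⁻¹ b) := by
      rw [mul_assoc, mul_assoc, ← mul_assoc (swap a b), swap_comm b a]
      congr 1
      have := swap_mul_swap_mul_swap (x := f⁻¹ b) (y := b) (z := a) hb hba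
      rw [swap_comm b a, swap_comm (f⁻¹ b) b] at this
      exact this
    rw [e] at P3
    exact P3.symm
  · rintro x rfl
    simp [h1]
  · rintro x rfl
    rw [Perm.mul_apply, swap_apply_left, Perm.mul_apply, swap_apply_of_ne_of_ne hba hb]
    simp

/-- Making a permutation trivial outside an invariant set preserves planarity. -/
theorem Planar.restrict {f g g' : Perm α} (h : Planar f g) (p : α → Prop)
    (h1 : ∀ x, p x → g' x = g x) (h2 : ∀ x, ¬ p x → g' x = x) : Planar f g' := by
  have := Fintype.ofFinite α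
  have hp : ∀ x, p x → p (g' x) := by
    intro x hx
    by_contra hn
    have := g'.injective (h2 _ hn)
    exact hn (this.symm ▸ hx)
  induction hn : (Finset.univ.filter fun x => ¬ p x ∧ g x ≠ x).card using Nat.strong_induction_on
    generalizing g with
  | _ n ih =>
  by_cases hex : ∃ x, ¬ p x ∧ g x ≠ x
  · obtain ⟨x, hx, hgx⟩ := hex
    have hy : ¬ p (g⁻¹ x) := by
      intro hy
      have := hp _ hy
      rw [h1 _ hy] at this
      simp at this
      exact hx this
    have hyx : g⁻¹ x ≠ x := by
      intro e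
      apply hgx
      conv_lhs => rw [← e]
      simp
    have hsc : sc g (g⁻¹ x) x := by simpa using sc_apply g (g⁻¹ x)
    refine ih _ ?_ (h.split hsc) ?_ rfl
    · rw [← hn]
      refine Finset.card_lt_card ⟨?_, fun hsub => ?_⟩
      · intro y hy'
        simp only [Finset.mem_filter, Finset.mem_univ, true_and] at hy' ⊢
        refine ⟨hy'.1, fun e => hy'.2 ?_⟩
        have e1 : y ≠ g⁻¹ x := by
          rintro rfl
          simp at e
          exact hyx e.symm
        have e2 : y ≠ x := by
          rintro rfl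
          exact hgx e
        rw [Perm.mul_apply, swap_apply_of_ne_of_ne e1 e2, e]
      · have : x ∈ Finset.univ.filter fun x => ¬ p x ∧ g x ≠ x := by simp [hx, hgx]
        have := (Finset.mem_filter.1 (hsub this)).2.2
        apply this
        rw [Perm.mul_apply, swap_apply_right]
        simp
    · intro y hy'
      have e1 : y ≠ g⁻¹ x := fun e => hy (e ▸ hy')
      have e2 : y ≠ x := fun e => hx (e ▸ hy')
      rw [Perm.mul_apply, swap_apply_of_ne_of_ne e1 e2, h1 _ hy']
  · push Not at hex
    have : g' = g := by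
      ext x
      by_cases hx : p x
      · exact h1 x hx
      · rw [h2 x hx, hex x hx]
    rw [this]
    exact h

/-- Folding: two darts at a common vertex can be paired. -/
theorem Planar.fold {f g : Perm α} (h : Planar f g) (hg : ∀ x, g (g x) = x) {x x' : α}
    (hxx : x ≠ x') (hx' : g x' ≠ x') (hs : sc (f * g) (g x') x) :
    Planar f (swap x' (g x) * g * swap x' (g x)) := by
  have P1 := h.of_prod hs
  have e : swap x' (g x) * g = g * swap (g x') x := by
    rw [mul_swap_eq_swap_mul, hg]
  rw [e]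
  refine P1.split ?_
  have k1 : (g * swap (g x') x) x' = g x' := by
    rw [Perm.mul_apply, swap_apply_of_ne_of_ne hx'.symm hxx.symm]
  have k2 : (g * swap (g x') x) (g x') = g x := by
    rw [Perm.mul_apply, swap_apply_left]
  have a1 := sc_apply (g * swap (g x') x) x'
  have a2 := sc_apply (g * swap (g x') x) (g x')
  rw [k1] at a1
  rw [k2] at a2
  exact (sc _).trans' a1 a2

/-- Two chords of one cycle do not cross. -/
theorem Planar.no_cross {f g : Perm α} (h : Planar f g) {a b c d : α} (h1 : g a = c)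
    (h2 : g c = a) (h3 : g b = d) (h4 : g d = b) (hac : a ≠ c) (hab : a ≠ b) (had : a ≠ d)
    (hcb : c ≠ b) (hcd : c ≠ d) (s1 : sc f a c) (s2 : sc f b d)
    (s3 : ¬ sc (f * swap a c) b d) : False := by
  have hbd : b ≠ d := fun e => s3 (e ▸ (sc _).refl' _)
  have P : Planar f (swap a c * swap b d) := by
    refine h.restrict (fun x => x = a ∨ x = c ∨ x = b ∨ x = d) ?_ ?_
    · rintro x (rfl | rfl | rfl | rfl)
      · rw [Perm.mul_apply, swap_apply_of_ne_of_ne hab had, swap_apply_left, h1]
      · rw [Perm.mul_apply, swap_apply_of_ne_of_ne hcb hcd, swap_apply_right, h2]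
      · rw [Perm.mul_apply, swap_apply_left, swap_apply_of_ne_of_ne had.symm hcd.symm, h3]
      · rw [Perm.mul_apply, swap_apply_right, swap_apply_of_ne_of_ne hab.symm hcb.symm, h4]
    · intro x hx
      push Not at hx
      rw [Perm.mul_apply, swap_apply_of_ne_of_ne hx.2.2.1 hx.2.2.2,
        swap_apply_of_ne_of_ne hx.1 hx.2.1]
  unfold Planar at P
  rw [← mul_assoc] at P
  have k1 := nq_merge s3
  have k2 := nq_split hac s1
  have k3 : nq (sc (1 * swap a c)) + 1 = nq (sc (1 : Perm α)) := by
    refine nq_merge ?_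
    rw [sc_one]
    exact hac
  have k4 : nq (sc (1 * swap a c * swap b d)) + 1 = nq (sc (1 * swap a c)) := by
    refine nq_merge fun k => hbd ?_
    refine (sc_inv (p := fun x => x = b) ?_ k rfl).symm
    rintro x rfl
    rw [one_mul, swap_apply_of_ne_of_ne hab.symm hcb.symm]
  rw [one_mul] at k3 k4
  rw [sc_one, nq_bot] at k3
  have k5 : nq (sc f) ≤ nq (sc f ⊔ sc (swap a c * swap b d)) := by
    refine nq_anti (sup_le le_rfl ?_)
    refine (sc_swap_le _ _ _).trans (pj_le ?_ s2)
    have := sc_swap_le (1 : Perm α) a c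
    rw [one_mul, sc_one] at this
    exact this.trans (pj_le bot_le s1)
  omega

/-- Counting classes with weights. -/
theorem nq_weight (r : Setoid α) [Fintype α] (w : α → ℕ) (c : ℕ)
    (h : ∀ x, c ≤ ∑ y ∈ Finset.univ.filter (fun y => r x y), w y) : c * nq r ≤ ∑ y, w y := by
  have := Fintype.ofFinite (Quotient r)
  unfold nq
  rw [Nat.card_eq_fintype_card, ← Finset.sum_fiberwise_of_maps_to (t := Finset.univ)
    (g := fun y => Quotient.mk r y) (fun _ _ => Finset.mem_univ _), mul_comm,
    ← Finset.card_univ, ← smul_eq_mul, ← Finset.sum_const]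
  refine Finset.sum_le_sum fun q _ => ?_
  obtain ⟨x, rfl⟩ := Quotient.exists_rep q
  refine (h x).trans (le_of_eq (Finset.sum_congr ?_ fun _ _ => rfl))
  ext y
  simp only [Finset.mem_filter, Finset.mem_univ, true_and]
  exact ⟨fun k => Quotient.sound (r.symm' k), fun k => r.symm' (Quotient.exact k)⟩

end

end Vale.Agent.P201
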