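import Vale.Agent.P201.Dual

/-
Van Kampen's lemma for spherical diagrams over a presentation by triangles.
-/

namespace Vale.Agent.P201

open Equiv Equiv.Perm Classical

/-- An oriented edge of a labelled graph. -/
abbrev Tri (S V : Type) := V × (S × Bool) × V

/-- The reversed edge. -/
def trev {S V : Type} (h : Tri S V) : Tri S V := (h.2.2, linv h.2.1, h.1)

/-- The three letters of the relator of an edge. -/
def tw {S V : Type} (h : Tri S V) : Fin 3 → (S ⊕ V) × Bool :=
  ![(Sum.inr h.1, true), (Sum.inl h.2.1.1, h.2.1.2), (Sum.inr h.2.2, false)]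

/-- The relator of an edge. -/
def trel {S V : Type} (h : Tri S V) : FreeGroup (S ⊕ V) := FreeGroup.mk [tw h 0, tw h 1, tw h 2]

/-- Reduced spherical diagrams whose faces are closed walks in the graph `E`. -/
structure Diagram {S V : Type} (E : V → S × Bool → V → Prop) {D : Type} (σ τ : Perm D)
    (src : D → V) (lt : D → S × Bool) : Prop where
  edge : ∀ d, E (src d) (lt d) (src (σ d))
  nb : ∀ d, lt (σ d) ≠ linv (lt d)
  invol : ∀ d, τ (τ d) = d
  ltτ : ∀ d, lt (τ d) = linv (lt d)
  red : ∀ d, src (τ d) ≠ src (σ d)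
  planar : Planar σ τ

/-- There is no reduced spherical diagram. -/
def NoDiagram {S V : Type} (E : V → S × Bool → V → Prop) : Prop :=
  ∀ (D : Type) [Fintype D] [Nonempty D] (σ τ : Perm D) (src : D → V) (lt : D → S × Bool),
    ¬ Diagram E σ τ src lt

/-- The darts of triangles and bigons, and one more point. -/
abbrev Drt (T B : Type) := Option ((T × Fin 3) ⊕ (B × Bool))

/-- Darts of triangles. -/
abbrev tri {T B : Type} (t : T) (i : Fin 3) : Drt T B := some (Sum.inl (t, i))

/-- Darts of bigons. -/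
abbrev bg {T B : Type} (b : B) (c : Bool) : Drt T B := some (Sum.inr (b, c))

/-- The face permutation. -/
def face (T B : Type) : Perm (Drt T B) :=
  Equiv.optionCongr (Equiv.sumCongr (Equiv.prodCongr (Equiv.refl T) (Equiv.addRight 1))
    (Equiv.prodCongr (Equiv.refl B) Equiv.boolNot))

/-- The darts which are still alive. -/
def Alive {T B : Type} (ZT : Finset T) (ZB : Finset B) : Drt T B → Prop
  | none => False
  | some (Sum.inl p) => p.1 ∈ ZT
  | some (Sum.inr p) => p.1 ∈ ZB

/-- The triangle of a dart. -/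
def triOf {T B : Type} (t0 : T) : Drt T B → T
  | some (Sum.inl p) => p.1
  | _ => t0

theorem face_tri {T B : Type} (t : T) (i : Fin 3) : face T B (tri t i) = tri t (i + 1) := rfl

theorem face_bg {T B : Type} (b : B) (c : Bool) : face T B (bg b c) = bg b (!c) := rfl

theorem tw_trev {S V : Type} (h : Tri S V) (i : Fin 3) :
    tw (trev h) (Fin.rev i) = linv (tw h i) := by
  fin_cases i <;> rfl

theorem trev_trev {S V : Type} (h : Tri S V) : trev (trev h) = h := by
  simp [trev, linv_linv]

section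
variable {S V G T B A : Type} [Group G] [AddCommGroup A] [Fintype T] [Fintype B]
  {E : V → S × Bool → V → Prop} {lab : Drt T B → (S ⊕ V) × Bool} {pos : Drt T B → G}
  {ev : (S ⊕ V) × Bool → G} {h : T → Tri S V}

theorem diagram_of_good (hs : ∀ v a v', E v a v' → E v' (linv a) v)
    (hd : ∀ v a v' v'', E v a v' → E v a v'' → v' = v'') (hE : ∀ t, E (h t).1 (h t).2.1 (h t).2.2)
    (hl : ∀ t i, lab (tri t i) = tw (h t) i) {ZT : Finset T} {μ : Perm (Drt T B)}
    (hg : Good (face T B) lab pos ev (Alive ZT ∅) μ)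
    (hm : ∀ t ∈ ZT, ∀ t' i, h t' = trev (h t) → μ (tri t i) ≠ tri t' (Fin.rev i)) :
    ∃ (σ τ : Perm {t // t ∈ ZT}), Diagram E σ τ (fun t => (h t).1) (fun t => (h t).2.1) := by
  have key : ∀ t ∈ ZT, ∀ i, triOf t (μ (tri t i)) ∈ ZT ∧
      μ (tri t i) = tri (triOf t (μ (tri t i))) (Fin.rev i) ∧
      tw (h (triOf t (μ (tri t i)))) (Fin.rev i) = linv (tw (h t) i) := by
    intro t ht i
    have a1 := hg.mem (tri t i) ht
    have a2 := hg.hlab (tri t i) ht
    generalize μ (tri t i) = y at a1 a2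
    rcases y with _ | ⟨t', i'⟩ | ⟨b, c⟩
    · exact a1.elim
    · rw [hl, hl] at a2
      have : i' = Fin.rev i := by
        fin_cases i <;> fin_cases i' <;> simp [tw, linv] at a2 ⊢
      subst this
      exact ⟨a1, rfl, a2⟩
    · exact absurd a1 (Finset.notMem_empty _)
  let F : Fin 3 → {t // t ∈ ZT} → {t // t ∈ ZT} := fun i t =>
    ⟨triOf t.1 (μ (tri t.1 i)), (key t.1 t.2 i).1⟩
  have F1 : ∀ i t, μ (tri t.1 i) = tri (F i t).1 (Fin.rev i) := fun i t => (key t.1 t.2 i).2.1
  have F2 : ∀ i t, tw (h (F i t).1) (Fin.rev i) = linv (tw (h t.1) i) :=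
    fun i t => (key t.1 t.2 i).2.2
  have F3 : ∀ i t, F (Fin.rev i) (F i t) = t := by
    intro i t
    have a1 := F1 (Fin.rev i) (F i t)
    rw [← F1 i t, hg.invol, Fin.rev_rev] at a1
    apply Subtype.ext
    simp only [Option.some.injEq, Sum.inl.injEq, Prod.mk.injEq] at a1
    exact a1.1.symm
  let σ : Perm {t // t ∈ ZT} := ⟨F 2, F 0, F3 2, F3 0⟩
  let τ : Perm {t // t ∈ ZT} := ⟨F 1, F 1, F3 1, F3 1⟩
  have e1 : ∀ t, (h (σ t).1).1 = (h t.1).2.2 := fun t => by
    have := F2 2 t
    show (h (F 2 t).1).1 = _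
    simpa [tw, linv] using this
  have e2 : ∀ t, (h (τ t).1).2.1 = linv (h t.1).2.1 := fun t => by
    have := F2 1 t
    simp only [tw, linv] at this ⊢
    simp at this
    exact Prod.ext this.1 this.2
  have mir : ∀ t t' : T, (h t').1 = (h t).2.2 → (h t').2.1 = linv (h t).2.1 →
      h t' = trev (h t) := by
    intro t t' k1 k2
    have a1 := hE t'
    rw [k1, k2] at a1
    exact Prod.ext k1 (Prod.ext k2 (hd _ _ _ _ a1 (hs _ _ _ (hE t))))
  refine ⟨σ, τ, fun t => ?_, fun t k => ?_, F3 1, e2, fun t k => ?_, ?_⟩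
  · rw [e1]
    exact hE _
  · exact hm t.1 t.2 _ 2 (mir _ _ (e1 t) k) (F1 2 t)
  · exact hm t.1 t.2 _ 1 (mir _ _ (k.trans (e1 t)) (e2 t)) (F1 1 t)
  · refine planar_dual hg.planar (fun t i => tri t.1 i) ?_ (fun t i => rfl) (F1 1) (F1 2) ?_
    · intro t i t' i' k
      simp only [Option.some.injEq, Sum.inl.injEq, Prod.mk.injEq] at k
      exact ⟨Subtype.ext k.1, k.2⟩
    · intro t
      have := F1 2 t
      have e : μ (μ (tri t.1 2)) = tri t.1 2 := hg.invol _
      rw [this] at e
      exact e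

theorem sum_eq_zero_of_good (hN : NoDiagram E) (hs : ∀ v a v', E v a v' → E v' (linv a) v)
    (hd : ∀ v a v' v'', E v a v' → E v a v'' → v' = v'') (hE : ∀ t, E (h t).1 (h t).2.1 (h t).2.2)
    (hev : ∀ a, ev (linv a) = (ev a)⁻¹)
    (hl : ∀ t i, lab (tri t i) = tw (h t) i) (hl' : ∀ b, lab (bg b true) = linv (lab (bg b false)))
    (hp : ∀ t i, pos (tri t (i + 1)) = pos (tri t i) * ev (lab (tri t i)))
    (hp' : ∀ b, pos (bg b true) = pos (bg b false) * ev (lab (bg b false)))
    (ω : G → Tri S V → A) (hω : ∀ γ e, E e.1 e.2.1 e.2.2 → ω γ (trev e) = - ω γ e) (n : ℕ) :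
    ∀ (ZT : Finset T) (ZB : Finset B) (μ : Perm (Drt T B)), ZT.card + ZB.card = n →
      Good (face T B) lab pos ev (Alive ZT ZB) μ → ∑ t ∈ ZT, ω (pos (tri t 0)) (h t) = 0 := by
  induction n using Nat.strong_induction_on with
  | _ n ih =>
  intro ZT ZB μ hn hg
  rcases ZB.eq_empty_or_nonempty with rfl | ⟨b, hb⟩
  swap
  · obtain ⟨μ', g1, g2, -⟩ := hg.fold (x := bg b false) (x' := bg b true) hb hb (hl' b) (hp' b) (by
      have := sc_apply (face T B * μ) (μ (bg b true))
      rwa [Perm.mul_apply, hg.invol] at this)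
    have g3 : μ' (bg b true) = bg b false := by rw [← g2, g1.invol]
    have := Finset.card_erase_lt_of_mem hb
    refine ih _ (by omega) ZT (ZB.erase b) μ' rfl (g1.mono ?_ ?_)
    · rintro (_ | p | p) k
      · exact k
      · exact k
      · exact Finset.mem_of_mem_erase k
    · rintro (_ | p | ⟨b', c⟩) k1 k2
      · exact k1.elim
      · exact absurd k1 k2
      · obtain rfl : b' = b := by
          by_contra hne
          exact k2 (Finset.mem_erase.2 ⟨hne, k1⟩)
        cases c
        · rw [g2]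
          exact Finset.notMem_erase _ _
        · rw [g3]
          exact Finset.notMem_erase _ _
  by_cases hm : ∀ t ∈ ZT, ∀ t' i, h t' = trev (h t) → μ (tri t i) ≠ tri t' (Fin.rev i)
  · rcases ZT.eq_empty_or_nonempty with rfl | ⟨t, ht⟩
    · rfl
    obtain ⟨σ, τ, hD⟩ := diagram_of_good hs hd hE hl hg hm
    have : Nonempty {t // t ∈ ZT} := ⟨⟨t, ht⟩⟩
    exact absurd hD (hN _ _ _ _ _)
  push Not at hm
  obtain ⟨t, ht, t', i, htt, hi⟩ := hm
  have ht' : t' ∈ ZT := by
    have := hg.mem (tri t i) ht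
    rwa [hi] at this
  have hne : t' ≠ t := by
    rintro rfl
    exact linv_ne _ (congrArg (fun e => e.2.1) htt).symm
  have hlab : ∀ j, lab (tri t' (Fin.rev j)) = linv (lab (tri t j)) := fun j => by
    rw [hl, hl, htt, tw_trev]
  have r1 : ∀ j : Fin 3, Fin.rev (j + 1) + 1 = Fin.rev j := by decide
  have hstep : ∀ j, pos (tri t' (Fin.rev j)) = pos (tri t j) * ev (lab (tri t j)) →
      pos (tri t' (Fin.rev (j + 1))) = pos (tri t (j + 1)) * ev (lab (tri t (j + 1))) := by
    intro j hj
    have := hp t' (Fin.rev (j + 1))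
    rw [r1, hlab, hev, hj, ← hp] at this
    rw [this, inv_mul_cancel_right]
  have mfold : ∀ j μ, Good (face T B) lab pos ev (Alive ZT ∅) μ →
      μ (tri t j) = tri t' (Fin.rev j) → ∃ μ', Good (face T B) lab pos ev (Alive ZT ∅) μ' ∧
        μ' (tri t (j + 1)) = tri t' (Fin.rev (j + 1)) ∧
        ∀ k, k ≠ j + 1 → μ (tri t k) = tri t' (Fin.rev k) → μ' (tri t k) = tri t' (Fin.rev k) := by
    intro j μ hg hj
    have hj' : μ (tri t' (Fin.rev j)) = tri t j := by rw [← hj, hg.invol]
    obtain ⟨μ', g1, g2, g3⟩ := hg.fold (x := tri t (j + 1)) (x' := tri t' (Fin.rev (j + 1))) ht ht'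
      (hlab _) (hstep j (by rw [← hj, hg.hpos (tri t j) ht])) (by
        have a1 := sc_apply (face T B * μ) (μ (tri t' (Fin.rev (j + 1))))
        have a2 := sc_apply (face T B * μ) (tri t' (Fin.rev j))
        rw [Perm.mul_apply, hg.invol, face_tri, r1] at a1
        rw [Perm.mul_apply, hj', face_tri] at a2
        exact (sc _).trans' a1 a2)
    refine ⟨μ', g1, g2, fun k hk hk' => ?_⟩
    rw [g3, hk']
    · simp [hk]
    · simp [hne.symm]
    · simp [hk', hne]
    · simp [hk', hk]
  obtain ⟨μ1, g1, g2, g3⟩ := mfold i μ hg hi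
  obtain ⟨μ2, k1, k2, k3⟩ := mfold (i + 1) μ1 g1 g2
  have hall : ∀ j, μ2 (tri t j) = tri t' (Fin.rev j) := by
    have n1 : ∀ i : Fin 3, i ≠ i + 1 ∧ i ≠ i + 1 + 1 ∧ i + 1 ≠ i + 1 + 1 := by decide
    have n2 : ∀ i j : Fin 3, j = i ∨ j = i + 1 ∨ j = i + 1 + 1 := by decide
    intro j
    rcases n2 i j with rfl | rfl | rfl
    · exact k3 _ (n1 _).2.1 (g3 _ (n1 _).1 hi)
    · exact k3 _ (n1 _).2.2 g2
    · exact k2
  have hall' : ∀ j, μ2 (tri t' j) = tri t (Fin.rev j) := fun j => by
    have := hall (Fin.rev j)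
    rw [Fin.rev_rev] at this
    rw [← this, k1.invol]
  have hpos0 : pos (tri t' 0) = pos (tri t 0) := by
    have a1 := k1.hpos (tri t 2) ht
    rw [hall, ← hp] at a1
    exact a1
  have ht'' : t' ∈ ZT.erase t := Finset.mem_erase.2 ⟨hne, ht'⟩
  have c1 := Finset.card_erase_lt_of_mem ht
  have c2 := Finset.card_erase_lt_of_mem ht''
  rw [← Finset.add_sum_erase _ _ ht, ← Finset.add_sum_erase _ _ ht'', hpos0, htt, hω _ _ (hE t),
    ih _ (by omega) ((ZT.erase t).erase t') ∅ μ2 rfl (k1.mono ?_ ?_)]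
  · simp
  · rintro (_ | p | p) k
    · exact k
    · exact Finset.mem_of_mem_erase (Finset.mem_of_mem_erase k)
    · exact k
  · rintro (_ | ⟨u, j⟩ | p) a1 a2
    · exact a1.elim
    · by_cases c : u = t
      · rw [c, hall]
        exact Finset.notMem_erase _ _
      · obtain rfl : u = t' := by
          by_contra hne
          exact a2 (Finset.mem_erase.2 ⟨hne, Finset.mem_erase.2 ⟨c, a1⟩⟩)
        rw [hall']
        intro k
        exact Finset.notMem_erase _ _ (Finset.mem_of_mem_erase k)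
    · exact absurd a1 a2

end

theorem mk_linv {X : Type} (a : X × Bool) : FreeGroup.mk [linv a] = (FreeGroup.mk [a])⁻¹ := by
  rw [FreeGroup.inv_mk]
  rfl

theorem prod_mk_single {X : Type} (w : List (X × Bool)) :
    (w.map fun a => FreeGroup.mk [a]).prod = FreeGroup.mk w := by
  induction w with
  | nil => rfl
  | cons a w ih => rw [List.map_cons, List.prod_cons, ih, FreeGroup.mul_mk]; rfl

/-- Identities among the relators are trivial when there is no reduced spherical diagram. -/
theorem identity_trivial {S V G A : Type} [Group G] [AddCommGroup A]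
    {E : V → S × Bool → V → Prop} (hN : NoDiagram E) (hs : ∀ v a v', E v a v' → E v' (linv a) v)
    (hd : ∀ v a v' v'', E v a v' → E v a v'' → v' = v'') (π : FreeGroup (S ⊕ V) →* G)
    (hπ : ∀ e : Tri S V, E e.1 e.2.1 e.2.2 → π (trel e) = 1) (m : ℕ)
    (u : Fin m → FreeGroup (S ⊕ V)) (h : Fin m → Tri S V)
    (hE : ∀ t, E (h t).1 (h t).2.1 (h t).2.2)
    (h1 : ((List.finRange m).map fun t => u t * trel (h t) * (u t)⁻¹).prod = 1)
    (ω : G → Tri S V → A) (hω : ∀ γ e, E e.1 e.2.1 e.2.2 → ω γ (trev e) = - ω γ e) :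
    ∑ t, ω (π (u t)) (h t) = 0 := by
  rcases isEmpty_or_nonempty (Fin m) with hm | ⟨⟨t0⟩⟩
  · simp
  let w : Fin m → List ((S ⊕ V) × Bool) := fun t => (u t).toWord
  let B := Σ t : Fin m, Fin (w t).length
  let lab : Drt (Fin m) B → (S ⊕ V) × Bool := fun x => match x with
    | none => tw (h t0) 0
    | some (Sum.inl p) => tw (h p.1) p.2
    | some (Sum.inr (b, false)) => (w b.1).get b.2
    | some (Sum.inr (b, true)) => linv ((w b.1).get b.2)
  let s : ∀ t : Fin m, Bool → Fin (w t).length → Drt (Fin m) B := fun t c j => bg ⟨t, j⟩ c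
  let blk : Fin m → List (Drt (Fin m) B) := fun t => (List.finRange _).map (s t false) ++
    ([tri t 0, tri t 1, tri t 2] ++ ((List.finRange _).map (s t true)).reverse)
  have st1 : ∀ t, (((List.finRange _).map (s t false)).map fun x => FreeGroup.mk [lab x]).prod =
      u t := by
    intro t
    rw [← FreeGroup.mk_toWord (x := u t), ← prod_mk_single]
    congr 1
    conv_rhs => rw [← List.map_get_finRange (u t).toWord]
    rw [List.map_map, List.map_map]
    rfl
  have st2 : ∀ t, (((List.finRange _).map (s t true)).reverse.map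
      fun x => FreeGroup.mk [lab x]).prod = (u t)⁻¹ := by
    intro t
    rw [← st1, List.prod_inv_reverse, List.map_reverse, List.map_map, List.map_map, List.map_map]
    congr 2
  have st3 : ∀ t, (([tri t 0, tri t 1, tri t 2] : List (Drt (Fin m) B)).map
      fun x => FreeGroup.mk [lab x]).prod = trel (h t) := fun t =>
    prod_mk_single [tw (h t) 0, tw (h t) 1, tw (h t) 2]
  have st4 : ∀ t, ((blk t).map fun x => FreeGroup.mk [lab x]).prod =
      u t * trel (h t) * (u t)⁻¹ := by
    intro t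
    simp only [blk]
    rw [List.map_append, List.map_append, List.prod_append, List.prod_append, st1, st2, st3,
      mul_assoc]
  have hW : FreeGroup.Red (((List.finRange m).flatMap blk).map lab) [] := by
    have : FreeGroup.mk (((List.finRange m).flatMap blk).map lab) = FreeGroup.mk [] := by
      rw [← prod_mk_single, List.map_map, ← FreeGroup.one_eq_mk, ← h1]
      generalize List.finRange m = L
      induction L with
      | nil => rfl
      | cons j L ih =>
        rw [List.flatMap_cons, List.map_append, List.prod_append, ih, List.map_cons,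
          List.prod_cons, ← st4]
        rfl
    obtain ⟨c, c1, c2⟩ := FreeGroup.Red.exact.1 this
    rwa [FreeGroup.Red.nil_iff.1 c2] at c1
  have memblk : ∀ t x, x ∈ blk t ↔ (∃ i, x = tri t i) ∨ ∃ j c, x = s t c j := by
    intro t x
    simp only [blk, List.mem_append, List.mem_map, List.mem_finRange, true_and, List.mem_reverse,
      List.mem_cons, List.not_mem_nil, or_false]
    constructor
    · rintro (⟨j, rfl⟩ | (rfl | rfl | rfl) | ⟨j, rfl⟩)
      · exact Or.inr ⟨_, _, rfl⟩
      · exact Or.inl ⟨_, rfl⟩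
      · exact Or.inl ⟨_, rfl⟩
      · exact Or.inl ⟨_, rfl⟩
      · exact Or.inr ⟨_, _, rfl⟩
    · rintro (⟨i, rfl⟩ | ⟨j, _ | _, rfl⟩)
      · fin_cases i <;> simp
      · exact Or.inl ⟨_, rfl⟩
      · exact Or.inr (Or.inr ⟨_, rfl⟩)
  have hnd : ((List.finRange m).flatMap blk).Nodup := by
    refine List.nodup_flatMap.2 ⟨fun t _ => ?_, ?_⟩
    · have inj : ∀ c, Function.Injective (s t c) := by
        intro c j j' k
        simpa [s, B] using k
      simp only [blk, List.nodup_append, List.nodup_reverse, List.mem_append, List.mem_map,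
        List.mem_finRange, true_and, List.mem_reverse, List.mem_cons, List.not_mem_nil, or_false]
      refine ⟨(List.nodup_finRange _).map (inj _), ⟨by simp, (List.nodup_finRange _).map (inj _),
        ?_⟩, ?_⟩
      · rintro _ (rfl | rfl | rfl) _ ⟨j, rfl⟩ <;> simp [s]
      · rintro _ ⟨j, rfl⟩ _ ((rfl | rfl | rfl) | ⟨j', rfl⟩) <;> simp [s]
    · refine (List.nodup_finRange m).imp ?_
      intro t t' hne x hx hx'
      rcases (memblk _ _).1 hx with ⟨i, rfl⟩ | ⟨j, c, rfl⟩ <;>
        rcases (memblk _ _).1 hx' with ⟨i', k⟩ | ⟨j', c', k⟩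
      · simp at k
        exact hne k.1
      · simp [s] at k
      · simp [s] at k
      · simp only [s, Option.some.injEq, Sum.inr.injEq, Prod.mk.injEq] at k
        exact hne (congrArg Sigma.fst k.1)
  have hnone : none ∉ (List.finRange m).flatMap blk := by
    intro k
    obtain ⟨t, -, k⟩ := List.mem_flatMap.1 k
    rcases (memblk _ _).1 k with ⟨i', k⟩ | ⟨j', c', k⟩
    · simp at k
    · simp [s] at k
  have hall : ∀ x, Alive Finset.univ Finset.univ x ↔ x ∈ (List.finRange m).flatMap blk := by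
    rintro (_ | ⟨t, i⟩ | ⟨⟨t, j⟩, c⟩)
    · exact ⟨fun k => k.elim, fun k => hnone k⟩
    · exact ⟨fun _ => List.mem_flatMap.2 ⟨t, List.mem_finRange _,
        (memblk _ _).2 (Or.inl ⟨i, rfl⟩)⟩, fun _ => Finset.mem_univ _⟩
    · exact ⟨fun _ => List.mem_flatMap.2 ⟨t, List.mem_finRange _,
        (memblk _ _).2 (Or.inr ⟨j, c, rfl⟩)⟩, fun _ => Finset.mem_univ _⟩
  have hshape : Shape (face (Fin m) B) ((List.finRange m).flatMap blk) := by
    refine Shape.flatMap blk (fun t => ?_) _
    have a1 := Shape.stick (φ := face (Fin m) B) (s t false) (s t true) (fun _ => rfl)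
      (fun _ => rfl) (List.finRange _) [] [] Shape.nil
    rw [List.nil_append, List.append_nil] at a1
    exact Shape.ins _ _ [tri t 0, tri t 1, tri t 2] (tri t 0) (tri t 2) a1 rfl rfl
      (by simp [face_tri]) rfl
  obtain ⟨f, f1, -, f3⟩ := hshape.exists_chain none (List.nodup_cons.2 ⟨hnone, hnd⟩)
  let ev : (S ⊕ V) × Bool → G := fun a => π (FreeGroup.mk [a])
  have hev : ∀ a, ev (linv a) = (ev a)⁻¹ := fun a => by simp only [ev, mk_linv, map_inv]
  have pr : ∀ L : List (Drt (Fin m) B), (L.map fun x => ev (lab x)).prod =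
      π (L.map fun x => FreeGroup.mk [lab x]).prod := fun L => by
    rw [map_list_prod, List.map_map]
    rfl
  obtain ⟨pos, hpos⟩ := exists_tr (fun x => ev (lab x)) _ hnd 1
  obtain ⟨μ, m1, -, m3, m4⟩ := exists_match lab pos ev hev hW _ f 1 rfl hnd f1.tail hpos
  have hg : Good (face (Fin m) B) lab pos ev (Alive Finset.univ Finset.univ) μ :=
    ⟨m1, (f3 μ m4.symm).symm, fun x hx => (hall _).2 (m3 x ((hall _).1 hx)).1,
      fun x hx => (m3 x ((hall _).1 hx)).2.1, fun x hx => (m3 x ((hall _).1 hx)).2.2⟩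
  have tb := tr_flatMap blk (fun t => by rw [pr, st4]; simp [hπ _ (hE t)]) _ hpos
  have mid : ∀ t, (([tri t 0, tri t 1, tri t 2] : List (Drt (Fin m) B)).map
      fun x => ev (lab x)).prod = 1 := fun t => by rw [pr, st3, hπ _ (hE t)]
  have tt : ∀ t, Tr pos (fun x => ev (lab x)) (π (u t)) [tri t 0, tri t 1, tri t 2] := by
    intro t
    have := (tr_append.1 (tr_append.1 (tb t (List.mem_finRange t))).2).1
    rwa [pr, st1, one_mul] at this
  have := sum_eq_zero_of_good hN hs hd hE hev (fun _ _ => rfl) (fun _ => rfl) ?_ ?_ ω hω _ _ _ μ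
    rfl hg
  · rw [← this]
    exact Finset.sum_congr rfl fun t _ => by rw [(tt t).1]
  · intro t i
    obtain ⟨a1, a2, a3, -⟩ := tt t
    have a4 := mid t
    simp only [List.map_cons, List.map_nil, List.prod_cons, List.prod_nil, mul_one] at a4
    fin_cases i
    · exact a2.trans (by rw [← a1]; rfl)
    · exact a3.trans (by rw [← a2]; rfl)
    · show pos (tri t 0) = pos (tri t 2) * ev (lab (tri t 2))
      rw [a3, mul_assoc, mul_assoc, a4, mul_one, a1]
  · rintro ⟨t, j⟩
    exact tr_stick (s t false) (s t true) (fun j => hev _) _ (mid t) _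
      (tb t (List.mem_finRange t)) j (List.mem_finRange j)

end Vale.Agent.P201
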